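import Mathlib
import Vale.Agent.H96.P171.Defs
import Vale.Agent.H91.P171.PairCount
import Vale.Agent.H74.P171.ShiftCount

/-!
# P171 moonshot, LP part, file 1: grids of half-open cubes (co-architect helper79)

Cells of side `l` (a natural number) of the grid with integer offset `a`:
`cell l a v = a + l v + [0,l)^3`.  For a shift `a : Fin 3 → Fin l` and `v : Fin 3 → Fin (K+2)`
the cell `gcell l K a v` has index `v - 1 ∈ {-1..K}^3`; these `(K+2)^3` cells are pairwise
disjoint and cover the box `[0, K l]^3`.  Only points of `E3` (no measures, no potentials).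
Paper proof: `Vale/Agent/H96/P171/PLAN.md`, (H1).
-/

open Classical
open scoped BigOperators

namespace Vale.Agent.H96.P171

/-- index of the cell of side `l` of the grid with offset `a` that contains `p` -/
noncomputable def cellIdx (l : ℕ) (a : Fin 3 → ℤ) (p : E3) : Fin 3 → ℤ :=
  fun i => ⌊(p i - (a i : ℝ)) / (l : ℝ)⌋

/-- the cell with index `v`, i.e. `a + l v + [0,l)^3` -/
def cell (l : ℕ) (a v : Fin 3 → ℤ) : Set E3 := {p | cellIdx l a p = v}

/-- the integer offset attached to a shift `a : Fin 3 → Fin l` -/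
def shift (l : ℕ) (a : Fin 3 → Fin l) : Fin 3 → ℤ := fun i => ((a i : ℕ) : ℤ)

/-- the cell of the shifted grid `a` with index `v - 1`, `v ∈ {0..K+1}^3` -/
def gcell (l K : ℕ) (a : Fin 3 → Fin l) (v : Fin 3 → Fin (K + 2)) : Set E3 :=
  cell l (shift l a) (fun i => ((v i : ℕ) : ℤ) - 1)

/-- the corner `a + l (v - 1)` of `gcell l K a v`, as a point of `E3` -/
noncomputable def gcorner (l K : ℕ) (a : Fin 3 → Fin l) (v : Fin 3 → Fin (K + 2)) : E3 :=
  WithLp.toLp 2 (fun i => (((a i : ℕ) : ℝ) + (l : ℝ) * (((v i : ℕ) : ℝ) - 1)))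

/-- the cell `[0,l)^3` -/
def cell0 (l : ℕ) : Set E3 := cell l 0 0

/-- cells of a fixed grid are measurable -/
lemma cells_measurableSet_cell (l : ℕ) (a v : Fin 3 → ℤ) : MeasurableSet (cell l a v) := by
  have hm : Measurable (cellIdx l a) := by
    rw [measurable_pi_iff]
    intro i
    have h1 : Measurable (fun p : E3 => (p i - (a i : ℝ)) / (l : ℝ)) := by
      have h0 : Measurable (fun p : E3 => p i) := (EuclideanSpace.proj i).continuous.measurable
      exact (h0.sub_const _).div_const _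
    exact Int.measurable_floor.comp h1
  exact hm (measurableSet_singleton v)

lemma cells_cell_disjoint (l : ℕ) (a v v' : Fin 3 → ℤ) (h : v ≠ v') :
    Disjoint (cell l a v) (cell l a v') := by
  rw [Set.disjoint_left]
  intro p hp hp'
  exact h (hp.symm.trans hp')

/-- the index of the cell of a point of the box lies in `{-1..K}^3` -/
lemma cells_idx_range (l K : ℕ) (hl : 0 < l) (a : Fin 3 → Fin l) (p : E3)
    (hp : p ∈ box ((K : ℝ) * (l : ℝ))) (i : Fin 3) :
    -1 ≤ cellIdx l (shift l a) p i ∧ cellIdx l (shift l a) p i ≤ (K : ℤ) := by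
  have hlR : (0 : ℝ) < (l : ℝ) := by exact_mod_cast hl
  obtain ⟨h0, h1⟩ := hp i
  have ha0 : (0 : ℝ) ≤ ((shift l a i : ℤ) : ℝ) := by
    simp [shift]
  have ha1 : ((shift l a i : ℤ) : ℝ) + 1 ≤ (l : ℝ) := by
    have : (a i : ℕ) + 1 ≤ l := (a i).isLt
    have h' : (((a i : ℕ) + 1 : ℕ) : ℝ) ≤ (l : ℝ) := by exact_mod_cast this
    simpa [shift] using h'
  constructor
  · rw [cellIdx, Int.le_floor, le_div_iff₀ hlR]
    push_cast
    linarith
  · have h2 : (p i - ((shift l a i : ℤ) : ℝ)) / (l : ℝ) ≤ (K : ℝ) := by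
      rw [div_le_iff₀ hlR]
      linarith
    have h3 : ((⌊(p i - ((shift l a i : ℤ) : ℝ)) / (l : ℝ)⌋ : ℤ) : ℝ) ≤ ((K : ℤ) : ℝ) := by
      refine le_trans (Int.floor_le _) ?_
      simpa using h2
    exact Int.cast_le.mp h3

/-- a point of the box lies in the cell `gcell l K a v` whose index is its cell index -/
lemma cells_exists_gcell (l K : ℕ) (hl : 0 < l) (a : Fin 3 → Fin l) (p : E3)
    (hp : p ∈ box ((K : ℝ) * (l : ℝ))) :
    ∃ v : Fin 3 → Fin (K + 2), p ∈ gcell l K a v ∧
      ∀ i, ((v i : ℕ) : ℤ) - 1 = cellIdx l (shift l a) p i := by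
  have hr := cells_idx_range l K hl a p hp
  have hb : ∀ i, (cellIdx l (shift l a) p i + 1).toNat < K + 2 := by
    intro i
    obtain ⟨h1, h2⟩ := hr i
    omega
  have hv : ∀ i, (((⟨(cellIdx l (shift l a) p i + 1).toNat, hb i⟩ : Fin (K + 2)) : ℕ) : ℤ) - 1
      = cellIdx l (shift l a) p i := by
    intro i
    obtain ⟨h1, h2⟩ := hr i
    show (((cellIdx l (shift l a) p i + 1).toNat : ℕ) : ℤ) - 1 = cellIdx l (shift l a) p i
    omega
  refine ⟨fun i => ⟨(cellIdx l (shift l a) p i + 1).toNat, hb i⟩, ?_, hv⟩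
  show cellIdx l (shift l a) p = fun i => _
  funext i
  exact (hv i).symm

lemma cells_near_coord (p q : E3) (i : Fin 3) : |p i - q i| ≤ dist p q := by
  have h := PiLp.norm_apply_le (p - q) i
  rw [dist_eq_norm]
  simpa [Real.norm_eq_abs] using h

/-- ROW LP-C1 (shift count, (H1)).  Two points of the box `[0, K l]^3` at distance `≤ r`,
`r + 1 < l`, lie in a common cell `gcell l K a v` for at least `(l - r - 1)^3` of the `l^3`
shifts `a`.  (Per coordinate the shifts that separate are the residues mod `l` of the integers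
in the half-open interval between the two coordinates: at most `r + 1`; the common cell has
index in `{-1..K}` because the points are in the box.) -/
theorem shift_count (l r K : ℕ) (hl : r + 1 < l) (p q : E3)
    (hp : p ∈ box ((K : ℝ) * (l : ℝ))) (hq : q ∈ box ((K : ℝ) * (l : ℝ)))
    (h : dist p q ≤ (r : ℝ)) :
    (l - r - 1) ^ 3 ≤
      (Finset.univ.filter (fun a : Fin 3 → Fin l =>
        ∃ v : Fin 3 → Fin (K + 2), p ∈ gcell l K a v ∧ q ∈ gcell l K a v)).card := by
  have hl0 : 0 < l := by omega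
  have hlR : (0 : ℝ) < (l : ℝ) := by exact_mod_cast hl0
  have hR : (r : ℝ) / (l : ℝ) + 1 / (l : ℝ) ≤ 1 := by
    rw [← add_div, div_le_one hlR]
    have : r + 1 ≤ l := hl.le
    exact_mod_cast this
  have hcoord : ∀ i, |p i - q i| ≤ (r : ℝ) := fun i => (cells_near_coord p q i).trans h
  have key := Vale.Agent.H74.P171.shift_count_three (l : ℝ) hlR l hl0 (fun j => p j)
    (fun j => q j) (r : ℝ) hcoord hR
  have hsub : ((Finset.univ : Finset (Fin 3 → Fin l)).filter
        (fun a : Fin 3 → Fin l => ∀ j, ⌊(p j - (a j : ℕ) * (l : ℝ) / (l : ℕ)) / (l : ℝ)⌋ =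
          ⌊(q j - (a j : ℕ) * (l : ℝ) / (l : ℕ)) / (l : ℝ)⌋)) ⊆
      (Finset.univ.filter (fun a : Fin 3 → Fin l =>
        ∃ v : Fin 3 → Fin (K + 2), p ∈ gcell l K a v ∧ q ∈ gcell l K a v)) := by
    intro a ha
    rw [Finset.mem_filter] at ha ⊢
    refine ⟨Finset.mem_univ _, ?_⟩
    have e : ∀ j : Fin 3, ((a j : ℕ) : ℝ) * (l : ℝ) / ((l : ℕ) : ℝ) = (((a j : ℕ) : ℤ) : ℝ) := by
      intro j
      rw [mul_div_assoc, div_self hlR.ne', mul_one]
      norm_cast
    have hsame : cellIdx l (shift l a) p = cellIdx l (shift l a) q := by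
      funext j
      have hj := ha.2 j
      rw [e j] at hj
      exact hj
    obtain ⟨v, hv, _⟩ := cells_exists_gcell l K hl0 a p hp
    refine ⟨v, hv, ?_⟩
    show cellIdx l (shift l a) q = _
    rw [← hsame]
    exact hv
  have hcast : (((l - r - 1 : ℕ) ^ 3 : ℕ) : ℝ)
      = (l : ℝ) ^ 3 * (1 - (r : ℝ) / (l : ℝ) - 1 / (l : ℝ)) ^ 3 := by
    have h1 : ((l - r - 1 : ℕ) : ℝ) = (l : ℝ) - r - 1 := by
      rw [Nat.cast_sub (by omega), Nat.cast_sub (by omega)]
      simp
    rw [Nat.cast_pow, h1, ← mul_pow]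
    congr 1
    field_simp
  have h2 := Nat.cast_le.mp (hcast.le.trans key)
  exact h2.trans (Finset.card_le_card hsub)

/-- ROW LP-C2a -/
theorem measurableSet_gcell (l K : ℕ) (a : Fin 3 → Fin l) (v : Fin 3 → Fin (K + 2)) :
    MeasurableSet (gcell l K a v) :=
  cells_measurableSet_cell _ _ _

/-- ROW LP-C2b -/
theorem gcell_disjoint (l K : ℕ) (a : Fin 3 → Fin l) (v v' : Fin 3 → Fin (K + 2))
    (h : v ≠ v') : Disjoint (gcell l K a v) (gcell l K a v') := by
  apply cells_cell_disjoint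
  intro heq
  apply h
  funext i
  have hi : ((v i : ℕ) : ℤ) - 1 = ((v' i : ℕ) : ℤ) - 1 := congrFun heq i
  apply Fin.ext
  omega

/-- ROW LP-C2c: the box `[0, K l]^3` is covered by the cells `gcell l K a v`. -/
theorem box_subset_iUnion_gcell (l K : ℕ) (hl : 0 < l) (a : Fin 3 → Fin l) :
    box ((K : ℝ) * (l : ℝ)) ⊆ ⋃ v : Fin 3 → Fin (K + 2), gcell l K a v := by
  intro p hp
  obtain ⟨v, hv, _⟩ := cells_exists_gcell l K hl a p hp
  exact Set.mem_iUnion.2 ⟨v, hv⟩

lemma cells_mem_gcell_iff (l K : ℕ) (hl : 0 < l) (a : Fin 3 → Fin l)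
    (v : Fin 3 → Fin (K + 2)) (p : E3) :
    p ∈ gcell l K a v ↔ p - gcorner l K a v ∈ cell0 l := by
  have hlR : (l : ℝ) ≠ 0 := by
    have : (0 : ℝ) < (l : ℝ) := by exact_mod_cast hl
    exact this.ne'
  have key : ∀ i : Fin 3, cellIdx l 0 (p - gcorner l K a v) i
      = cellIdx l (shift l a) p i - (((v i : ℕ) : ℤ) - 1) := by
    intro i
    simp only [cellIdx, Pi.zero_apply, Int.cast_zero, sub_zero, shift]
    have e : (p - gcorner l K a v) i
        = p i - (((a i : ℕ) : ℝ) + (l : ℝ) * (((v i : ℕ) : ℝ) - 1)) := by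
      simp [gcorner]
    rw [e, ← Int.floor_sub_intCast]
    congr 1
    push_cast
    field_simp
    ring
  simp only [gcell, cell0, cell, Set.mem_ofPred_eq, funext_iff, key, Pi.zero_apply]
  constructor
  · intro h i
    rw [h i, sub_self]
  · intro h i
    exact sub_eq_zero.mp (h i)

/-- ROW LP-C2d: every cell is a translate of `[0,l)^3`. -/
theorem gcell_eq_image (l K : ℕ) (hl : 0 < l) (a : Fin 3 → Fin l) (v : Fin 3 → Fin (K + 2)) :
    gcell l K a v = (fun p : E3 => p + gcorner l K a v) '' cell0 l := by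
  ext p
  rw [cells_mem_gcell_iff l K hl a v p, Set.mem_image]
  constructor
  · intro h
    exact ⟨p - gcorner l K a v, h, sub_add_cancel _ _⟩
  · rintro ⟨x, hx, rfl⟩
    rwa [add_sub_cancel_right]

/-- ROW LP-C2e -/
theorem measurableSet_cell0 (l : ℕ) : MeasurableSet (cell0 l) :=
  cells_measurableSet_cell _ _ _

/-- ROW LP-C2f: `[0,l)^3` lies in the closed box `[0,l]^3`. -/
theorem cell0_subset_box (l : ℕ) (hl : 0 < l) : cell0 l ⊆ box (l : ℝ) := by
  intro p hp i
  have hlR : (0 : ℝ) < (l : ℝ) := by exact_mod_cast hl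
  have h := congrFun hp i
  simp only [cellIdx, Pi.zero_apply, Int.cast_zero, sub_zero] at h
  rw [Int.floor_eq_zero_iff] at h
  obtain ⟨h0, h1⟩ := h
  rw [le_div_iff₀ hlR, zero_mul] at h0
  rw [div_lt_one hlR] at h1
  exact ⟨h0, h1.le⟩

/-- `lsum` as a double sum over positions. -/
lemma cells_lsum_get (f : E3 → E3 → ℝ) (l : List E3) :
    lsum f l = ∑ i : Fin l.length, ∑ j : Fin l.length,
      if i < j then f (l.get i) (l.get j) else 0 := by
  induction l with
  | nil => simp [lsum]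
  | cons a l ih =>
    simp only [lsum, List.length_cons]
    rw [Fin.sum_univ_succ, ih]
    congr 1
    · rw [Fin.sum_univ_succ]
      simp only [lt_self_iff_false, if_false, zero_add, Fin.succ_pos, if_true, List.get_cons_zero]
      rw [← Fin.sum_univ_fun_getElem]
      rfl
    · refine Finset.sum_congr rfl fun i _ => ?_
      rw [Fin.sum_univ_succ]
      simp only [Fin.not_lt_zero, if_false, zero_add, Fin.succ_lt_succ_iff]
      rfl

lemma cells_near_num (l : ℕ) (hl : 0 < l) (R : ℝ) (hR : 4 * (l : ℝ) ≤ R) :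
    (((2 * ⌈R / (l : ℝ)⌉.toNat + 1) ^ 3 : ℕ) : ℝ) ≤ 21 * R ^ 3 / (l : ℝ) ^ 3 := by
  have hl' : (0 : ℝ) < (l : ℝ) := by exact_mod_cast hl
  set q : ℝ := R / (l : ℝ) with hq
  have hq4 : 4 ≤ q := by
    rw [hq, le_div_iff₀ hl']
    exact hR
  have hc0 : (0 : ℤ) ≤ ⌈q⌉ := Int.ceil_nonneg (by linarith)
  have hc1 : ((⌈q⌉ : ℤ) : ℝ) < q + 1 := Int.ceil_lt_add_one q
  have hk : ((⌈q⌉.toNat : ℕ) : ℝ) = ((⌈q⌉ : ℤ) : ℝ) := by
    have : ((⌈q⌉.toNat : ℕ) : ℤ) = ⌈q⌉ := Int.toNat_of_nonneg hc0
    exact_mod_cast this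
  have hk0 : (0 : ℝ) ≤ ((⌈q⌉.toNat : ℕ) : ℝ) := Nat.cast_nonneg _
  have h1 : (2 * ((⌈q⌉.toNat : ℕ) : ℝ) + 1) ≤ (11 / 4) * q := by
    rw [hk]
    linarith
  have h2 : (2 * ((⌈q⌉.toNat : ℕ) : ℝ) + 1) ^ 3 ≤ ((11 / 4) * q) ^ 3 :=
    pow_le_pow_left₀ (by positivity) h1 3
  have h3 : 21 * R ^ 3 / (l : ℝ) ^ 3 = 21 * q ^ 3 := by
    rw [hq, div_pow]
    ring
  rw [h3]
  push_cast
  have hq3 : 0 ≤ q ^ 3 := by positivity
  nlinarith [h2, hq3]

/-- the length of a filtered list as a sum over positions -/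
lemma cells_length_filter (p : E3 → Bool) (L : List E3) :
    (L.filter p).length = ∑ i : Fin L.length, if p (L.get i) then 1 else 0 := by
  induction L with
  | nil => simp
  | cons b L ih =>
    have hsum : (∑ i : Fin (b :: L).length, if p ((b :: L).get i) then 1 else 0)
        = (if p b then 1 else 0) + ∑ i : Fin L.length, if p (L.get i) then 1 else 0 := by
      simp only [List.length_cons]
      rw [Fin.sum_univ_succ]
      rfl
    rw [hsum, ← ih]
    by_cases h : p b
    · rw [List.filter_cons_of_pos h, if_pos h, List.length_cons]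
      omega
    · rw [List.filter_cons_of_neg h, if_neg h, zero_add]

/-- ROW LP-C3 (near pairs, (H2) for the long bumps): a list of points of the box; positions
`i < j` with points at distance `< R`, `R ≥ 4 l`: their number is at most
`(21/2) R^3 / l^3` times the sum over the cells of the squares of the occupation numbers.
(Cell indices of a near pair differ by at most `ρ = ⌈R/l⌉ ≤ R/l + 1` per coordinate;
`(2ρ+1)^3 ≤ (2R/l + 3)^3 ≤ (2.75)^3 R^3/l^3 ≤ 21 R^3/l^3`; for each index difference the number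
of ordered pairs is at most the sum of squares.  Black box on main:
`Vale/Agent/H91/P171/PairCount.lean`.  `lsum` with the indicator counts positions `i < j`.) -/
theorem near_count (l K : ℕ) (hl : 0 < l) (a : Fin 3 → Fin l) (R : ℝ) (hR : 4 * (l : ℝ) ≤ R)
    (L : List E3) (hL : ∀ p ∈ L, p ∈ box ((K : ℝ) * (l : ℝ))) :
    lsum (fun p q => if dist p q < R then (1 : ℝ) else 0) L
      ≤ 21 / 2 * R ^ 3 / (l : ℝ) ^ 3 *
        ∑ v : Fin 3 → Fin (K + 2), ((rest (gcell l K a v) L).length : ℝ) ^ 2 := by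
  have hl' : (0 : ℝ) < (l : ℝ) := by exact_mod_cast hl
  have hRpos : 0 < R := by linarith
  obtain ⟨x, hx⟩ : ∃ x : Fin L.length → E3, x = fun i => L.get i := ⟨_, rfl⟩
  have hxbox : ∀ i, x i ∈ box ((K : ℝ) * (l : ℝ)) := by
    intro i
    rw [hx]
    exact hL _ (List.get_mem L i)
  obtain ⟨c, hc⟩ : ∃ c : Fin L.length → (Fin 3 → ℤ),
      c = fun i => cellIdx l (shift l a) (x i) := ⟨_, rfl⟩
  obtain ⟨k, hk⟩ : ∃ k : ℕ, k = ⌈R / (l : ℝ)⌉.toNat := ⟨_, rfl⟩
  have hq4 : 4 ≤ R / (l : ℝ) := by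
    rw [le_div_iff₀ hl']
    exact hR
  have hc0 : (0 : ℤ) ≤ ⌈R / (l : ℝ)⌉ := Int.ceil_nonneg (by linarith)
  have hkc : ((k : ℕ) : ℤ) = ⌈R / (l : ℝ)⌉ := by
    rw [hk]
    exact Int.toNat_of_nonneg hc0
  -- the near pairs have index difference in the box
  have hsub : (Finset.univ.filter
        (fun p : Fin L.length × Fin L.length => p.1 ≠ p.2 ∧ dist (x p.1) (x p.2) < R)) ⊆
      (Finset.univ.filter fun p : Fin L.length × Fin L.length =>
        c p.2 - c p.1 ∈ Vale.Agent.H91.P171.box3 k) := by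
    intro p hp
    rw [Finset.mem_filter] at hp ⊢
    refine ⟨Finset.mem_univ _, ?_⟩
    rw [Vale.Agent.H91.P171.mem_box3]
    intro i
    have h1 : |x p.2 i - x p.1 i| < R :=
      lt_of_le_of_lt (cells_near_coord (x p.2) (x p.1) i) (by rw [dist_comm]; exact hp.2.2)
    have h2 : |(x p.2 i - ((shift l a i : ℤ) : ℝ)) - (x p.1 i - ((shift l a i : ℤ) : ℝ))|
        < R := by
      have e : (x p.2 i - ((shift l a i : ℤ) : ℝ)) - (x p.1 i - ((shift l a i : ℤ) : ℝ))
          = x p.2 i - x p.1 i := by ring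
      rw [e]
      exact h1
    have h3 := Vale.Agent.H91.P171.floor_div_sub_le _ _ R (l : ℝ) hl' h2
    rw [hkc, hc]
    exact h3
  have h1 : (Finset.univ.filter
        (fun p : Fin L.length × Fin L.length => p.1 ≠ p.2 ∧ dist (x p.1) (x p.2) < R)).card ≤
      (Vale.Agent.H91.P171.box3 k).card * Vale.Agent.H91.P171.sameCell c :=
    le_trans (Finset.card_le_card hsub)
      (Vale.Agent.H91.P171.pairs_diff_mem_le c (Vale.Agent.H91.P171.box3 k))
  rw [Vale.Agent.H91.P171.card_box3] at h1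
  have h3 : ((Finset.univ.filter
        (fun p : Fin L.length × Fin L.length => p.1 ≠ p.2 ∧ dist (x p.1) (x p.2) < R)).card : ℝ)
      ≤ 21 * R ^ 3 / (l : ℝ) ^ 3 * (Vale.Agent.H91.P171.sameCell c : ℝ) := by
    have h3' : ((Finset.univ.filter
        (fun p : Fin L.length × Fin L.length => p.1 ≠ p.2 ∧ dist (x p.1) (x p.2) < R)).card : ℝ)
        ≤ (((2 * k + 1) ^ 3 : ℕ) : ℝ) * (Vale.Agent.H91.P171.sameCell c : ℝ) := by
      exact_mod_cast h1
    have h4 := cells_near_num l hl R hR
    rw [← hk] at h4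
    exact h3'.trans (mul_le_mul_of_nonneg_right h4 (Nat.cast_nonneg _))
  -- the list sum is half the number of ordered near pairs
  have hA : lsum (fun p q => if dist p q < R then (1 : ℝ) else 0) L
      = (1 / 2) * ((Finset.univ.filter (fun p : Fin L.length × Fin L.length =>
          p.1 ≠ p.2 ∧ dist (x p.1) (x p.2) < R)).card : ℝ) := by
    rw [cells_lsum_get, Finset.card_filter, Nat.cast_sum, Fintype.sum_prod_type]
    have hsym : ∑ i : Fin L.length, ∑ j : Fin L.length,
          (if i < j then (if dist (L.get i) (L.get j) < R then (1 : ℝ) else 0) else 0)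
        = ∑ i : Fin L.length, ∑ j : Fin L.length,
          (if j < i then (if dist (L.get i) (L.get j) < R then (1 : ℝ) else 0) else 0) := by
      rw [Finset.sum_comm]
      refine Finset.sum_congr rfl fun i _ => Finset.sum_congr rfl fun j _ => ?_
      rw [dist_comm]
    have hsplit : ∀ i j : Fin L.length,
        (((if (i ≠ j ∧ dist (x i) (x j) < R) then 1 else 0 : ℕ)) : ℝ)
        = (if i < j then (if dist (L.get i) (L.get j) < R then (1 : ℝ) else 0) else 0)
          + (if j < i then (if dist (L.get i) (L.get j) < R then (1 : ℝ) else 0) else 0) := by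
      intro i j
      rw [hx]
      rcases lt_trichotomy i j with h | h | h
      · have hne : i ≠ j := h.ne
        have hnot : ¬ j < i := not_lt.mpr h.le
        simp only [if_pos h, if_neg hnot, add_zero, hne, ne_eq, not_false_eq_true, true_and]
        split_ifs <;> simp
      · subst h
        simp
      · have hne : i ≠ j := h.ne'
        have hnot : ¬ i < j := not_lt.mpr h.le
        simp only [if_pos h, if_neg hnot, zero_add, hne, ne_eq, not_false_eq_true, true_and]
        split_ifs <;> simp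
    simp only [hsplit, Finset.sum_add_distrib]
    rw [← hsym]
    ring
  -- the occupation numbers
  have hC : (Vale.Agent.H91.P171.sameCell c : ℝ)
      ≤ ∑ v : Fin 3 → Fin (K + 2), ((rest (gcell l K a v) L).length : ℝ) ^ 2 := by
    obtain ⟨idx, hidx⟩ : ∃ idx : (Fin 3 → Fin (K + 2)) → (Fin 3 → ℤ),
        idx = fun v i => ((v i : ℕ) : ℤ) - 1 := ⟨_, rfl⟩
    have hinj : Function.Injective idx := by
      intro v v' h
      funext i
      have hi : ((v i : ℕ) : ℤ) - 1 = ((v' i : ℕ) : ℤ) - 1 := by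
        have h' := congrFun h i
        rw [hidx] at h'
        exact h'
      apply Fin.ext
      omega
    have hocc : ∀ v, Vale.Agent.H91.P171.occ c (idx v) = (rest (gcell l K a v) L).length := by
      intro v
      unfold Vale.Agent.H91.P171.occ rest
      rw [cells_length_filter, Finset.card_filter]
      refine Finset.sum_congr rfl fun i _ => ?_
      have hiff : (c i = idx v) ↔ L.get i ∈ gcell l K a v := by
        rw [hc, hx, hidx]
        exact Iff.rfl
      simp only [hiff, decide_eq_true_eq]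
    have himg : (Finset.univ.image c) ⊆ (Finset.univ.image idx) := by
      intro s hs
      obtain ⟨i, _, rfl⟩ := Finset.mem_image.mp hs
      obtain ⟨v, _, hv⟩ := cells_exists_gcell l K hl a (x i) (hxbox i)
      refine Finset.mem_image.mpr ⟨v, Finset.mem_univ _, ?_⟩
      rw [hidx, hc]
      funext j
      exact hv j
    have h1 : Vale.Agent.H91.P171.sameCell c
        ≤ ∑ v : Fin 3 → Fin (K + 2), (rest (gcell l K a v) L).length ^ 2 := by
      rw [Vale.Agent.H91.P171.sameCell_eq_sum_sq]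
      calc ∑ s ∈ Finset.univ.image c, Vale.Agent.H91.P171.occ c s ^ 2
          ≤ ∑ s ∈ Finset.univ.image idx, Vale.Agent.H91.P171.occ c s ^ 2 :=
            Finset.sum_le_sum_of_subset himg
        _ = ∑ v : Fin 3 → Fin (K + 2), Vale.Agent.H91.P171.occ c (idx v) ^ 2 :=
            Finset.sum_image (fun v _ w _ h => hinj h)
        _ = ∑ v : Fin 3 → Fin (K + 2), (rest (gcell l K a v) L).length ^ 2 := by
            refine Finset.sum_congr rfl fun v _ => ?_
            rw [hocc v]
    exact_mod_cast h1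
  rw [hA]
  have hS0 : (0 : ℝ) ≤ 21 * R ^ 3 / (l : ℝ) ^ 3 := by positivity
  calc 1 / 2 * ((Finset.univ.filter (fun p : Fin L.length × Fin L.length =>
          p.1 ≠ p.2 ∧ dist (x p.1) (x p.2) < R)).card : ℝ)
      ≤ 1 / 2 * (21 * R ^ 3 / (l : ℝ) ^ 3 * (Vale.Agent.H91.P171.sameCell c : ℝ)) :=
        mul_le_mul_of_nonneg_left h3 (by norm_num)
    _ ≤ 1 / 2 * (21 * R ^ 3 / (l : ℝ) ^ 3 *
          ∑ v : Fin 3 → Fin (K + 2), ((rest (gcell l K a v) L).length : ℝ) ^ 2) :=
        mul_le_mul_of_nonneg_left (mul_le_mul_of_nonneg_left hC hS0) (by norm_num)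
    _ = 21 / 2 * R ^ 3 / (l : ℝ) ^ 3 *
          ∑ v : Fin 3 → Fin (K + 2), ((rest (gcell l K a v) L).length : ℝ) ^ 2 := by ring

end Vale.Agent.H96.P171
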