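import Mathlib
import Vale.Agent.H96.P171.Defs
import Vale.Agent.H96.P171.Energy.Basic

/-!
# P171 moonshot, LP part, file 2: the parameters of the grid argument (co-architect helper79)

For the bump index `n`: cell side `l = rho n`, `r0 n = R_(n-1)` (a natural number),
`piN n = ((l - r0 - 1)/l)^3` (fraction of shifts for which a pair within `R_(n-1)` shares a cell),
`tailS t n = ∑_{k ≥ n} t_k`, `sN t n σ = (21/2)(σ + tailS t n)`, `tcut t n = (t_k / piN n)_{k<n}`.
All facts here are elementary (factorials, tails of summable series).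
Paper proof: `Vale/Agent/H96/P171/PLAN.md`, (H).
-/

open Filter Topology
open scoped BigOperators

namespace Vale.Agent.H96.P171

/-- `R_(n-1)` as a natural number -/
def r0 (n : ℕ) : ℕ := 4 * rho (n - 1) + 2

/-- `pi_n = ((l - r - 1)/l)^3` with `l = rho n`, `r = r0 n` -/
noncomputable def piN (n : ℕ) : ℝ := (((rho n - r0 n - 1 : ℕ) : ℝ) / (rho n : ℝ)) ^ 3

/-- the tail sum `∑_{k ≥ n} t_k` -/
noncomputable def tailS (t : ℕ → ℝ) (n : ℕ) : ℝ := ∑' k : ℕ, t (k + n)

/-- `s = (21/2)(σ + tail)` -/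
noncomputable def sN (t : ℕ → ℝ) (n : ℕ) (σ : ℝ) : ℝ := 21 / 2 * (σ + tailS t n)

/-- the cut and rescaled parameter `t'' = (t_k / pi_n for k < n, 0 for k ≥ n)` -/
noncomputable def tcut (t : ℕ → ℝ) (n : ℕ) : ℕ → ℝ := fun k => if k < n then t k / piN n else 0

/-- ROW LP-E1: `(n+1)! > 4 n! + 3` for `n ≥ 4`. -/
theorem r0_add_one_lt (n : ℕ) (hn : 4 ≤ n) : r0 n + 1 < rho n := by
  unfold r0 rho
  have h1 : n - 1 + 1 = n := by omega
  rw [h1, Nat.factorial_succ]
  have h2 : 24 ≤ n.factorial := by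
    calc 24 = (4 : ℕ).factorial := by decide
      _ ≤ n.factorial := Nat.factorial_le hn
  nlinarith [Nat.mul_le_mul_right n.factorial (show 5 ≤ n + 1 by omega)]

theorem rho_pos (n : ℕ) : 0 < rho n := by
  unfold rho
  exact Nat.factorial_pos _

theorem piN_pos (n : ℕ) (hn : 4 ≤ n) : 0 < piN n := by
  unfold piN
  have h1 := r0_add_one_lt n hn
  have h2 : 0 < rho n - r0 n - 1 := by omega
  have h3 : (0 : ℝ) < ((rho n - r0 n - 1 : ℕ) : ℝ) := by exact_mod_cast h2
  have h4 : (0 : ℝ) < (rho n : ℝ) := by exact_mod_cast rho_pos n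
  positivity

theorem piN_le_one (n : ℕ) : piN n ≤ 1 := by
  unfold piN
  have h4 : (0 : ℝ) < (rho n : ℝ) := by exact_mod_cast rho_pos n
  have h5 : ((rho n - r0 n - 1 : ℕ) : ℝ) ≤ (rho n : ℝ) := by
    have : rho n - r0 n - 1 ≤ rho n := by omega
    exact_mod_cast this
  have h6 : ((rho n - r0 n - 1 : ℕ) : ℝ) / (rho n : ℝ) ≤ 1 := (div_le_one h4).2 h5
  have h7 : 0 ≤ ((rho n - r0 n - 1 : ℕ) : ℝ) / (rho n : ℝ) := by positivity
  exact pow_le_one₀ h7 h6

/-- `pi_n l^3 = (l - r - 1)^3` -/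
theorem piN_mul (n : ℕ) : piN n * (rho n : ℝ) ^ 3 = ((rho n - r0 n - 1 : ℕ) : ℝ) ^ 3 := by
  unfold piN
  have h4 : (rho n : ℝ) ≠ 0 := by
    have := rho_pos n
    positivity
  rw [div_pow, div_mul_cancel₀]
  exact pow_ne_zero 3 h4

/-- the bumps below `n` have range at most `r0 n` -/
theorem Rn_le_r0 (k n : ℕ) (hk : k < n) : Rn k ≤ (r0 n : ℝ) := by
  unfold Rn r0
  have h1 : rho k ≤ rho (n - 1) := by
    unfold rho
    exact Nat.factorial_le (by omega)
  have h2 : (rho k : ℝ) ≤ (rho (n - 1) : ℝ) := by exact_mod_cast h1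
  push_cast
  linarith

/-- the bumps from `n` on have range at least four cell sides -/
theorem four_rho_le_Rn (k n : ℕ) (hk : n ≤ k) : 4 * (rho n : ℝ) ≤ Rn k := by
  unfold Rn
  have h1 : rho n ≤ rho k := by
    unfold rho
    exact Nat.factorial_le (by omega)
  have h2 : (rho n : ℝ) ≤ (rho k : ℝ) := by exact_mod_cast h1
  linarith

/-- ROW LP-E2: limits. -/
theorem tendsto_piN : Tendsto piN atTop (𝓝 1) := by
  have hbase : Tendsto (fun n : ℕ => ((rho n - r0 n - 1 : ℕ) : ℝ) / (rho n : ℝ)) atTop (𝓝 1) := by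
    have hlow : Tendsto (fun n : ℕ => 1 - 7 * (1 / ((n : ℝ) + 1))) atTop (𝓝 1) := by
      have h := (tendsto_one_div_add_atTop_nhds_zero_nat (𝕜 := ℝ)).const_mul 7
      have h' := h.const_sub 1
      simpa using h'
    refine tendsto_of_tendsto_of_tendsto_of_le_of_le' hlow tendsto_const_nhds ?_ ?_
    · filter_upwards [eventually_ge_atTop 4] with n hn
      have h1 := r0_add_one_lt n hn
      have h4 : (0 : ℝ) < (rho n : ℝ) := by exact_mod_cast rho_pos n
      have hcast : ((rho n - r0 n - 1 : ℕ) : ℝ) = (rho n : ℝ) - (r0 n : ℝ) - 1 := by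
        have h2 : r0 n + 1 ≤ rho n := h1.le
        have h3 : rho n - r0 n - 1 = rho n - (r0 n + 1) := by omega
        rw [h3, Nat.cast_sub h2]
        push_cast
        ring
      rw [hcast, le_div_iff₀ h4]
      -- (1 - 7/(n+1)) * rho ≤ rho - r0 - 1
      have hn1 : (0 : ℝ) < (n : ℝ) + 1 := by positivity
      have hfac : (n.factorial : ℝ) ≥ 1 := by exact_mod_cast Nat.factorial_pos n
      have hrho : (rho n : ℝ) = ((n : ℝ) + 1) * (n.factorial : ℝ) := by
        unfold rho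
        rw [Nat.factorial_succ]
        push_cast
        ring
      have hr0 : (r0 n : ℝ) = 4 * (n.factorial : ℝ) + 2 := by
        unfold r0 rho
        have : n - 1 + 1 = n := by omega
        rw [this]
        push_cast
        ring
      rw [hrho, hr0]
      have : (1 - 7 * (1 / ((n : ℝ) + 1))) * (((n : ℝ) + 1) * (n.factorial : ℝ))
          = ((n : ℝ) + 1) * (n.factorial : ℝ) - 7 * (n.factorial : ℝ) := by
        field_simp
      rw [this]
      linarith
    · filter_upwards with n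
      have h4 : (0 : ℝ) < (rho n : ℝ) := by exact_mod_cast rho_pos n
      have h5 : ((rho n - r0 n - 1 : ℕ) : ℝ) ≤ (rho n : ℝ) := by
        have : rho n - r0 n - 1 ≤ rho n := by omega
        exact_mod_cast this
      exact (div_le_one h4).2 h5
  have h3 := hbase.pow 3
  rw [one_pow] at h3
  exact h3

theorem tendsto_rho : Tendsto (fun n : ℕ => (rho n : ℝ)) atTop atTop := by
  refine tendsto_atTop_mono (fun n => ?_) tendsto_natCast_atTop_atTop
  have h1 : n ≤ rho n := by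
    unfold rho
    exact (Nat.le_succ n).trans (Nat.self_le_factorial (n + 1))
  exact_mod_cast h1

theorem tailS_nonneg (t : ℕ → ℝ) (h : Adm t) (n : ℕ) : 0 ≤ tailS t n := by
  unfold tailS
  exact tsum_nonneg fun k => h.1 (k + n)

theorem tendsto_tailS (t : ℕ → ℝ) (h : Adm t) : Tendsto (tailS t) atTop (𝓝 0) := by
  unfold tailS
  exact tendsto_sum_nat_add t

/-- ROW LP-E3: admissibility of the modified parameters and splitting of the series. -/
theorem Adm_addAt (t : ℕ → ℝ) (h : Adm t) (n : ℕ) (σ : ℝ) (hσ : 0 ≤ σ) : Adm (addAt t n σ) := by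
  refine ⟨fun k => ?_, ?_⟩
  · unfold addAt
    have := h.1 k
    split_ifs <;> linarith
  · unfold addAt
    refine h.2.add (summable_of_ne_finset_zero (s := {n}) fun k hk => ?_)
    have : k ≠ n := by simpa using hk
    simp [this]

theorem Adm_tcut (t : ℕ → ℝ) (h : Adm t) (n : ℕ) (hn : 4 ≤ n) : Adm (tcut t n) := by
  have hp := piN_pos n hn
  refine ⟨fun k => ?_, ?_⟩
  · unfold tcut
    split_ifs
    · exact div_nonneg (h.1 k) hp.le
    · exact le_refl _
  · refine summable_of_ne_finset_zero (s := Finset.range n) fun k hk => ?_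
    have : ¬ k < n := by simpa using hk
    unfold tcut
    simp [this]

theorem tcut_le (t : ℕ → ℝ) (h : Adm t) (n : ℕ) (hn : 4 ≤ n) (k : ℕ) :
    tcut t n k ≤ t k / piN n := by
  have hp := piN_pos n hn
  unfold tcut
  split_ifs
  · exact le_refl _
  · exact div_nonneg (h.1 k) hp.le

theorem tsum_tcut_le (t : ℕ → ℝ) (h : Adm t) (n : ℕ) (hn : 4 ≤ n) :
    ∑' k, tcut t n k ≤ (∑' k, t k) / piN n := by
  rw [← tsum_div_const]
  exact (Adm_tcut t h n hn).2.tsum_le_tsum (tcut_le t h n hn) (h.2.div_const _)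

/-- splitting `∑_k (t + σ e_n)_k w_k` at `n` for a bounded nonnegative sequence `w`:
the head is `∑_{k<n} t_k w_k`, and if `w_k ≤ c` for `k ≥ n` the tail is at most `(σ + tailS t n) c` -/
theorem tsum_addAt_le (t : ℕ → ℝ) (h : Adm t) (n : ℕ) (σ : ℝ) (hσ : 0 ≤ σ) (w : ℕ → ℝ)
    (hw : ∀ k, 0 ≤ w k) (c : ℝ) (hc : ∀ k, n ≤ k → w k ≤ c)
    (hs : Summable fun k => addAt t n σ k * w k) :
    ∑' k, addAt t n σ k * w k ≤ ∑ k ∈ Finset.range n, t k * w k + (σ + tailS t n) * c := by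
  have hA := Adm_addAt t h n σ hσ
  rw [← hs.sum_add_tsum_nat_add n]
  have hhead : ∑ k ∈ Finset.range n, addAt t n σ k * w k = ∑ k ∈ Finset.range n, t k * w k := by
    refine Finset.sum_congr rfl fun k hk => ?_
    have : k ≠ n := (Finset.mem_range.1 hk).ne
    unfold addAt
    simp [this]
  rw [hhead]
  have hs1 : Summable fun k => addAt t n σ (k + n) * w (k + n) := (summable_nat_add_iff n).2 hs
  have hs2 : Summable fun k => addAt t n σ (k + n) := (summable_nat_add_iff n).2 hA.2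
  have hs3 : Summable fun k => t (k + n) := (summable_nat_add_iff n).2 h.2
  have hs4 : Summable fun k : ℕ => if k = 0 then σ else 0 :=
    summable_of_ne_finset_zero (s := {0}) fun k hk => by
      have : k ≠ 0 := by simpa using hk
      simp [this]
  have htail : ∑' k, addAt t n σ (k + n) * w (k + n) ≤ ∑' k, addAt t n σ (k + n) * c :=
    hs1.tsum_le_tsum (fun k => mul_le_mul_of_nonneg_left (hc (k + n) (by omega)) (hA.1 (k + n)))
      (hs2.mul_right c)
  have hsum : ∑' k, addAt t n σ (k + n) = σ + tailS t n := by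
    have e : (fun k => addAt t n σ (k + n)) = fun k => t (k + n) + if k = 0 then σ else 0 := by
      funext k
      unfold addAt
      by_cases hk : k = 0
      · simp [hk]
      · simp [hk]
    rw [e, hs3.tsum_add hs4, tsum_ite_eq]
    unfold tailS
    ring
  rw [tsum_mul_right, hsum] at htail
  linarith

/-- `∑_k (tcut t n)_k w_k = (∑_{k<n} t_k w_k) / pi_n` -/
theorem tsum_tcut_mul (t : ℕ → ℝ) (n : ℕ) (w : ℕ → ℝ) :
    ∑' k, tcut t n k * w k = (∑ k ∈ Finset.range n, t k * w k) / piN n := by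
  rw [tsum_eq_sum (s := Finset.range n) (fun k hk => by
    have : ¬ k < n := by simpa using hk
    unfold tcut
    simp [this]), Finset.sum_div]
  refine Finset.sum_congr rfl fun k hk => ?_
  have : k < n := Finset.mem_range.1 hk
  unfold tcut
  simp only [this, if_true]
  ring

/-- ROW LP-E4: everything that has to be small or large is so for all large `n`
(`tendsto_piN`, `tendsto_tailS`, `tendsto_rho`; `log (a x + 2) / x → 0` as `x → ∞`). -/
theorem eventually_params (t : ℕ → ℝ) (h : Adm t) (δ a b : ℝ) (hδ : 0 < δ) (ha : 0 ≤ a)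
    (hb : 0 < b) :
    ∃ n0 : ℕ, ∀ n : ℕ, n0 ≤ n → 4 ≤ n ∧ 1 / 2 ≤ piN n ∧ 1 / piN n - 1 ≤ δ ∧ tailS t n ≤ δ ∧
      (((rho n : ℝ) + 1) / (rho n : ℝ)) ^ 3 - 1 ≤ δ ∧
      Real.log (a * (rho n : ℝ) ^ 3 + 2) / (rho n : ℝ) ^ 3 ≤ δ ∧
      16 / 3 ≤ (rho n : ℝ) ^ 3 * b := by
  have e1 : ∀ᶠ n : ℕ in atTop, 4 ≤ n := eventually_ge_atTop 4
  have e2 : ∀ᶠ n : ℕ in atTop, 1 / 2 ≤ piN n :=
    tendsto_piN.eventually_const_le (by norm_num)
  have e3 : ∀ᶠ n : ℕ in atTop, 1 / piN n - 1 ≤ δ := by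
    have h1 : Tendsto (fun n => 1 / piN n - 1) atTop (𝓝 0) := by
      have h2 := (tendsto_piN.inv₀ one_ne_zero).sub_const 1
      simpa [one_div] using h2
    exact h1.eventually_le_const hδ
  have e4 : ∀ᶠ n : ℕ in atTop, tailS t n ≤ δ := (tendsto_tailS t h).eventually_le_const hδ
  have e5 : ∀ᶠ n : ℕ in atTop,
      max (max (7 / δ) (4 * (a + 2) / δ ^ 2)) (max 1 (16 / (3 * b))) ≤ (rho n : ℝ) :=
    tendsto_rho.eventually_ge_atTop _
  rw [← eventually_atTop]
  filter_upwards [e1, e2, e3, e4, e5] with n h1 h2 h3 h4 h5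
  have hr1 : 7 / δ ≤ (rho n : ℝ) := (le_max_left _ _).trans ((le_max_left _ _).trans h5)
  have hr2 : 4 * (a + 2) / δ ^ 2 ≤ (rho n : ℝ) :=
    (le_max_right _ _).trans ((le_max_left _ _).trans h5)
  have hr3 : 1 ≤ (rho n : ℝ) := (le_max_left _ _).trans ((le_max_right _ _).trans h5)
  have hr4 : 16 / (3 * b) ≤ (rho n : ℝ) := (le_max_right _ _).trans ((le_max_right _ _).trans h5)
  obtain ⟨ρ, hρdef⟩ : ∃ ρ : ℝ, ρ = (rho n : ℝ) := ⟨_, rfl⟩
  rw [← hρdef] at hr1 hr2 hr3 hr4 ⊢
  have hρ0 : 0 < ρ := by linarith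
  have hcube : ρ ≤ ρ ^ 3 := by nlinarith [mul_nonneg hρ0.le hρ0.le]
  refine ⟨h1, h2, h3, h4, ?_, ?_, ?_⟩
  · have hy : (ρ + 1) / ρ = 1 + 1 / ρ := by field_simp
    rw [hy]
    obtain ⟨y, hydef⟩ : ∃ y : ℝ, y = 1 / ρ := ⟨_, rfl⟩
    rw [← hydef]
    have hy0 : 0 ≤ y := by rw [hydef]; positivity
    have hy1 : y ≤ 1 := by rw [hydef, div_le_one hρ0]; exact hr3
    have hy2 : 7 * y ≤ δ := by
      rw [div_le_iff₀ hδ] at hr1
      rw [hydef, mul_one_div, div_le_iff₀ hρ0]
      linarith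
    have hyy : y * y ≤ y := mul_le_of_le_one_right hy0 hy1
    have hyyy : y * y * y ≤ y := (mul_le_of_le_one_right (mul_nonneg hy0 hy0) hy1).trans hyy
    nlinarith
  · have hx1 : 1 ≤ ρ ^ 3 := hr3.trans hcube
    have hx2 : 4 * (a + 2) ≤ δ ^ 2 * ρ ^ 3 := by
      have h6 := hr2.trans hcube
      rw [div_le_iff₀ (pow_pos hδ 2)] at h6
      linarith
    obtain ⟨x, hxdef⟩ : ∃ x : ℝ, x = ρ ^ 3 := ⟨_, rfl⟩
    rw [← hxdef] at hx1 hx2 ⊢
    have hx0 : 0 < x := by linarith
    rw [div_le_iff₀ hx0]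
    have hy : 0 < a * x + 2 := by positivity
    have hlog : Real.log (a * x + 2) ≤ 2 * Real.sqrt (a * x + 2) := by
      have h7 := Real.log_le_sub_one_of_pos (Real.sqrt_pos.2 hy)
      rw [Real.log_sqrt hy.le] at h7
      linarith
    have hsq : Real.sqrt (a * x + 2) ≤ δ * x / 2 := by
      rw [Real.sqrt_le_left (by positivity)]
      nlinarith [mul_le_mul_of_nonneg_right hx2 hx0.le]
    linarith
  · rw [div_le_iff₀ (by positivity)] at hr4
    nlinarith [mul_le_mul_of_nonneg_right hcube hb.le]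

end Vale.Agent.H96.P171
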