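import Mathlib
import Vale.Agent.H96.P171.Defs
import Vale.Agent.H96.P171.Energy.Lsum
import Vale.Agent.H96.P171.Energy.Basic
import Vale.Agent.H96.P171.Energy.Split
import Vale.Agent.H96.P171.LP.Cells
import Vale.Agent.H96.P171.LP.Params

/-!
# P171 moonshot, LP part, file 3: the pointwise energy inequality (H2) (co-architect helper79)

For a list `L` of points of the box `[0, K l]^3`, `l = rho n`:
`En (t + σ e_n) L ≥ l^-3 ∑_a ∑_v [ En t'' (L restricted to gcell a v) - s n_(a,v)^2 / l^3 ]`,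
`t'' = tcut t n`, `s = sN t n σ`.  Pure list combinatorics, no measures.
Paper proof: `Vale/Agent/H96/P171/PLAN.md`, (H2).
-/

open Classical
open scoped BigOperators

namespace Vale.Agent.H96.P171

/-- a finite sum inside a mapped list sum -/
theorem pair_sum_map_finset {κ : Type} (s : Finset κ) (F : κ → E3 → ℝ) (l : List E3) :
    (l.map (fun q => ∑ a ∈ s, F a q)).sum = ∑ a ∈ s, (l.map (F a)).sum := by
  induction l with
  | nil => simp
  | cons b l ih =>
    simp only [List.map_cons, List.sum_cons]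
    rw [ih, Finset.sum_add_distrib]

/-- a mapped sum over a sub-list as a sum with indicators -/
theorem pair_sum_rest (g : E3 → ℝ) (B : Set E3) (l : List E3) :
    ((rest B l).map g).sum = (l.map (fun q => if q ∈ B then g q else 0)).sum := by
  induction l with
  | nil =>
    rw [split_rest_nil]
    simp
  | cons b l ih =>
    by_cases hb : b ∈ B
    · rw [split_rest_cons_mem hb, List.map_cons, List.sum_cons, List.map_cons, List.sum_cons, ih,
        if_pos hb]
    · rw [split_rest_cons_not_mem hb, List.map_cons, List.sum_cons, ih, if_neg hb, zero_add]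

/-- ROW LP-P0 (list lemmas for `lsum`; induction on the list). -/
theorem lsum_mono_mem (f g : E3 → E3 → ℝ) (L : List E3)
    (h : ∀ p ∈ L, ∀ q ∈ L, f p q ≤ g p q) : lsum f L ≤ lsum g L := by
  induction L with
  | nil => simp [lsum]
  | cons a l ih =>
    have ih' := ih (fun p hp q hq =>
      h p (List.mem_cons_of_mem _ hp) q (List.mem_cons_of_mem _ hq))
    show (l.map (f a)).sum + lsum f l ≤ (l.map (g a)).sum + lsum g l
    have h1 : (l.map (f a)).sum ≤ (l.map (g a)).sum := by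
      apply List.sum_le_sum
      intro b hb
      exact h a List.mem_cons_self b (List.mem_cons_of_mem _ hb)
    linarith

theorem lsum_finset_sum {κ : Type} (s : Finset κ) (f : κ → E3 → E3 → ℝ) (L : List E3) :
    lsum (fun p q => ∑ a ∈ s, f a p q) L = ∑ a ∈ s, lsum (f a) L := by
  induction L with
  | nil => simp [lsum]
  | cons b l ih =>
    show (l.map (fun q => ∑ a ∈ s, f a b q)).sum + lsum (fun p q => ∑ a ∈ s, f a p q) l
      = ∑ a ∈ s, ((l.map (f a b)).sum + lsum (f a) l)
    rw [ih, Finset.sum_add_distrib, pair_sum_map_finset s (fun a => f a b) l]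

theorem lsum_const_mul (c : ℝ) (f : E3 → E3 → ℝ) (L : List E3) :
    lsum (fun p q => c * f p q) L = c * lsum f L := by
  induction L with
  | nil => simp [lsum]
  | cons b l ih =>
    show (l.map (fun q => c * f b q)).sum + lsum (fun p q => c * f p q) l
      = c * ((l.map (f b)).sum + lsum f l)
    rw [ih, mul_add, List.sum_map_mul_left]

/-- the sum over pairwise disjoint cells of the pair sums of the sub-lists is the pair sum
restricted to the pairs lying in a common cell -/
theorem sum_lsum_rest_eq {ι : Type} [Fintype ι] (A : ι → Set E3)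
    (hd : ∀ i j, i ≠ j → Disjoint (A i) (A j)) (f : E3 → E3 → ℝ) (L : List E3) :
    ∑ i, lsum f (rest (A i) L)
      = lsum (fun p q => if ∃ i, p ∈ A i ∧ q ∈ A i then f p q else 0) L := by
  induction L with
  | nil => simp [split_rest_nil, lsum]
  | cons a l ih =>
    show _ = (l.map (fun q => if ∃ i, a ∈ A i ∧ q ∈ A i then f a q else 0)).sum
      + lsum (fun p q => if ∃ i, p ∈ A i ∧ q ∈ A i then f p q else 0) l
    rw [← ih]
    by_cases hex : ∃ i0, a ∈ A i0
    · obtain ⟨i0, hi0⟩ := hex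
      rw [split_sum_cons A hd (lsum f) ((rest (A i0) l).map (f a)).sum a l i0 hi0
        (by show ((rest (A i0) l).map (f a)).sum + lsum f (rest (A i0) l) = _; ring)]
      rw [add_comm]
      congr 1
      have hiff : ∀ q, (∃ i, a ∈ A i ∧ q ∈ A i) ↔ q ∈ A i0 := by
        intro q
        constructor
        · rintro ⟨i, hai, hqi⟩
          by_contra hq
          have hne : i ≠ i0 := fun h => hq (h ▸ hqi)
          exact Set.disjoint_left.mp (hd i i0 hne) hai hi0
        · intro hq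
          exact ⟨i0, hi0, hq⟩
      rw [pair_sum_rest]
      congr 1
      apply List.map_congr_left
      intro q _
      simp only [hiff q]
    · push Not at hex
      have hsum : ∑ i, lsum f (rest (A i) (a :: l)) = ∑ i, lsum f (rest (A i) l) :=
        Finset.sum_congr rfl (fun i _ => by rw [split_rest_cons_not_mem (hex i)])
      rw [hsum]
      have h0 : (l.map (fun q => if ∃ i, a ∈ A i ∧ q ∈ A i then f a q else 0)).sum = 0 := by
        apply List.sum_eq_zero
        intro x hx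
        obtain ⟨q, _, rfl⟩ := List.mem_map.mp hx
        rw [if_neg]
        rintro ⟨i, hai, _⟩
        exact hex i hai
      rw [h0, zero_add]

/-- ROW LP-P1 (short bumps, (H2) for `k < n`): from `shift_count`, `sum_lsum_rest_eq`,
`lsum_finset_sum`, `lsum_mono_mem` (a pair at distance `< Rn k ≤ r` shares a cell for at least
`(l - r - 1)^3` shifts; a pair at distance `≥ Rn k` contributes `0` on both sides). -/
theorem Wn_short (l r K : ℕ) (hl : r + 1 < l) (k : ℕ) (hk : Rn k ≤ (r : ℝ))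
    (L : List E3) (hL : ∀ p ∈ L, p ∈ box ((K : ℝ) * (l : ℝ))) :
    ((l - r - 1 : ℕ) : ℝ) ^ 3 * Wn k L
      ≤ ∑ a : Fin 3 → Fin l, ∑ v : Fin 3 → Fin (K + 2), Wn k (rest (gcell l K a v) L) := by
  have h1 : ∀ a : Fin 3 → Fin l, ∑ v : Fin 3 → Fin (K + 2), Wn k (rest (gcell l K a v) L)
      = lsum (fun p q => if ∃ v, p ∈ gcell l K a v ∧ q ∈ gcell l K a v
          then bump k (dist p q) else 0) L := by
    intro a
    exact sum_lsum_rest_eq (fun v => gcell l K a v)
      (fun v v' hv => gcell_disjoint l K a v v' hv) (fun p q => bump k (dist p q)) L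
  rw [Finset.sum_congr rfl (fun a _ => h1 a), ← lsum_finset_sum]
  unfold Wn
  rw [← lsum_const_mul]
  apply lsum_mono_mem
  intro p hp q hq
  by_cases hd : dist p q < Rn k
  · have hsc := shift_count l r K hl p q (hL p hp) (hL q hq) (by linarith)
    rw [← Finset.sum_filter, Finset.sum_const, nsmul_eq_mul]
    have hcast : ((l - r - 1 : ℕ) : ℝ) ^ 3 ≤
        ((Finset.univ.filter (fun a : Fin 3 → Fin l =>
          ∃ v : Fin 3 → Fin (K + 2), p ∈ gcell l K a v ∧ q ∈ gcell l K a v)).card : ℝ) := by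
      exact_mod_cast hsc
    exact mul_le_mul_of_nonneg_right hcast (bump_nonneg k _)
  · have hb : bump k (dist p q) = 0 := by
      unfold bump
      rw [if_neg hd]
    rw [hb]
    simp

/-- ROW LP-P2 (long bumps, (H2) for `k ≥ n`): from `near_count` with `R = Rn k`
(`Wn k L = (Rn k)^-3 *` number of near pairs). -/
theorem Wn_long (l K : ℕ) (hl : 0 < l) (a : Fin 3 → Fin l) (k : ℕ) (hk : 4 * (l : ℝ) ≤ Rn k)
    (L : List E3) (hL : ∀ p ∈ L, p ∈ box ((K : ℝ) * (l : ℝ))) :
    Wn k L ≤ 21 / 2 / (l : ℝ) ^ 3 *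
      ∑ v : Fin 3 → Fin (K + 2), ((rest (gcell l K a v) L).length : ℝ) ^ 2 := by
  have hR : 0 < Rn k := by
    have := Rn_ge k
    linarith
  have h1 := near_count l K hl a (Rn k) hk L hL
  have e : Wn k L
      = ((Rn k)⁻¹) ^ 3 * lsum (fun p q => if dist p q < Rn k then (1 : ℝ) else 0) L := by
    unfold Wn
    rw [← lsum_const_mul]
    congr 1
    funext p q
    unfold bump
    split_ifs <;> simp
  rw [e]
  have hl3 : (0 : ℝ) < (l : ℝ) ^ 3 := by positivity
  have h2 := mul_le_mul_of_nonneg_left h1 (show (0 : ℝ) ≤ ((Rn k)⁻¹) ^ 3 by positivity)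
  refine h2.trans (le_of_eq ?_)
  field_simp

/-- exchanging the sums over shifts, cells and bump indices -/
theorem pair_p3_swap {α β : Type} [Fintype α] [Fintype β] (n : ℕ) (t : ℕ → ℝ)
    (W : ℕ → α → β → ℝ) :
    ∑ a : α, ∑ v : β, ∑ k ∈ Finset.range n, t k * W k a v
      = ∑ k ∈ Finset.range n, t k * ∑ a : α, ∑ v : β, W k a v := by
  simp only [Finset.mul_sum]
  calc ∑ a : α, ∑ v : β, ∑ k ∈ Finset.range n, t k * W k a v
      = ∑ a : α, ∑ k ∈ Finset.range n, ∑ v : β, t k * W k a v :=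
        Finset.sum_congr rfl (fun a _ => Finset.sum_comm)
    _ = ∑ k ∈ Finset.range n, ∑ a : α, ∑ v : β, t k * W k a v := Finset.sum_comm

/-- the real-number inequality behind the assembly -/
theorem pair_p3_alg (Λ π s Q A X E S T c σt : ℝ) (hΛ : 0 < Λ) (hπ : 0 < π)
    (hA : A ≤ Λ * E) (hS : Λ * S * π ≤ X) (hT : T ≤ S + σt * c)
    (hc : Λ * (σt * c) = s * Q / Λ) :
    Λ⁻¹ * (A - X / π - s * Q / Λ) ≤ E - T := by
  rw [inv_mul_le_iff₀ hΛ]
  have h1 : Λ * S ≤ X / π := by
    rw [le_div_iff₀ hπ]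
    exact hS
  have h2 := mul_le_mul_of_nonneg_left hT hΛ.le
  rw [mul_add, hc] at h2
  rw [mul_sub]
  linarith

/-- ROW LP-P3 (assembly of (H2)).  `En_eq` for `addAt t n σ` and for `tcut t n`;
core: `sum_rest_le_lsum` for every shift; `k < n`: `Wn_short` with `r = r0 n`
(`Rn_le_r0`, `r0_add_one_lt`, `piN_mul`); `k ≥ n`: `Wn_long` (`four_rho_le_Rn`) and
`tsum_addAt_le`, `tsum_tcut_mul`; there are `l^3` shifts. -/
theorem En_grid_lower (t : ℕ → ℝ) (h : Adm t) (σ : ℝ) (hσ : 0 ≤ σ) (n : ℕ) (hn : 4 ≤ n)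
    (K : ℕ) (L : List E3) (hL : ∀ p ∈ L, p ∈ box ((K : ℝ) * (rho n : ℝ))) :
    ((rho n : ℝ) ^ 3)⁻¹ * ∑ a : Fin 3 → Fin (rho n), ∑ v : Fin 3 → Fin (K + 2),
        (En (tcut t n) (rest (gcell (rho n) K a v) L)
          - sN t n σ * ((rest (gcell (rho n) K a v) L).length : ℝ) ^ 2 / (rho n : ℝ) ^ 3)
      ≤ En (addAt t n σ) L := by
  have hlpos : (0 : ℝ) < (rho n : ℝ) := by exact_mod_cast rho_pos n
  have hΛ : (0 : ℝ) < (rho n : ℝ) ^ 3 := by positivity
  have hπ : 0 < piN n := piN_pos n hn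
  have hT : Adm (addAt t n σ) := Adm_addAt t h n σ hσ
  have ht2 : Adm (tcut t n) := Adm_tcut t h n hn
  have hr : r0 n + 1 < rho n := r0_add_one_lt n hn
  -- the summands
  have hsummand : ∀ (a : Fin 3 → Fin (rho n)) (v : Fin 3 → Fin (K + 2)),
      En (tcut t n) (rest (gcell (rho n) K a v) L)
          - sN t n σ * ((rest (gcell (rho n) K a v) L).length : ℝ) ^ 2 / (rho n : ℝ) ^ 3
        = Ecore (rest (gcell (rho n) K a v) L)
          - (∑ k ∈ Finset.range n, t k * Wn k (rest (gcell (rho n) K a v) L)) / piN n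
          - sN t n σ * ((rest (gcell (rho n) K a v) L).length : ℝ) ^ 2 / (rho n : ℝ) ^ 3 := by
    intro a v
    rw [En_eq _ ht2, tsum_tcut_mul]
  have hcard : Fintype.card (Fin 3 → Fin (rho n)) = rho n ^ 3 := by simp
  -- core
  have hcore : ∑ a : Fin 3 → Fin (rho n), ∑ v : Fin 3 → Fin (K + 2),
      Ecore (rest (gcell (rho n) K a v) L) ≤ (rho n : ℝ) ^ 3 * Ecore L := by
    have h1 : ∀ a : Fin 3 → Fin (rho n), ∑ v : Fin 3 → Fin (K + 2),
        Ecore (rest (gcell (rho n) K a v) L) ≤ Ecore L := fun a =>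
      sum_rest_le_lsum (fun v => gcell (rho n) K a v)
        (fun v v' hvv => gcell_disjoint (rho n) K a v v' hvv) _ (fun p q => phi0_nonneg _) L
    have h2 := Finset.sum_le_sum (fun a (_ : a ∈ (Finset.univ : Finset (Fin 3 → Fin (rho n)))) =>
      h1 a)
    rw [Finset.sum_const, Finset.card_univ, hcard, nsmul_eq_mul] at h2
    push_cast at h2
    exact h2
  -- short bumps
  have hshort : ∀ k, k < n → piN n * (rho n : ℝ) ^ 3 * Wn k L
      ≤ ∑ a : Fin 3 → Fin (rho n), ∑ v : Fin 3 → Fin (K + 2),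
        Wn k (rest (gcell (rho n) K a v) L) := by
    intro k hk
    rw [piN_mul]
    exact Wn_short (rho n) (r0 n) K hr k (Rn_le_r0 k n hk) L hL
  -- long bumps
  have hlong : ∀ k, n ≤ k → Wn k L ≤ 21 / 2 / (rho n : ℝ) ^ 3 * (((rho n : ℝ) ^ 3)⁻¹ *
      ∑ a : Fin 3 → Fin (rho n), ∑ v : Fin 3 → Fin (K + 2),
        ((rest (gcell (rho n) K a v) L).length : ℝ) ^ 2) := by
    intro k hk
    have h1 : ∀ a : Fin 3 → Fin (rho n), Wn k L ≤ 21 / 2 / (rho n : ℝ) ^ 3 *
        ∑ v : Fin 3 → Fin (K + 2), ((rest (gcell (rho n) K a v) L).length : ℝ) ^ 2 := fun a =>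
      Wn_long (rho n) K (rho_pos n) a k (four_rho_le_Rn k n hk) L hL
    have h2 := Finset.sum_le_sum (fun a (_ : a ∈ (Finset.univ : Finset (Fin 3 → Fin (rho n)))) =>
      h1 a)
    rw [Finset.sum_const, Finset.card_univ, hcard, nsmul_eq_mul, ← Finset.mul_sum] at h2
    push_cast at h2
    have e : 21 / 2 / (rho n : ℝ) ^ 3 * (((rho n : ℝ) ^ 3)⁻¹ *
        ∑ a : Fin 3 → Fin (rho n), ∑ v : Fin 3 → Fin (K + 2),
          ((rest (gcell (rho n) K a v) L).length : ℝ) ^ 2)
        = ((rho n : ℝ) ^ 3)⁻¹ * (21 / 2 / (rho n : ℝ) ^ 3 *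
          ∑ a : Fin 3 → Fin (rho n), ∑ v : Fin 3 → Fin (K + 2),
            ((rest (gcell (rho n) K a v) L).length : ℝ) ^ 2) := by ring
    rw [e, le_inv_mul_iff₀ hΛ]
    exact h2
  -- the series of the modified parameter
  have hser := tsum_addAt_le t h n σ hσ (fun k => Wn k L) (fun k => Wn_nonneg k L) _ hlong
    (summable_t_Wn _ hT L)
  rw [En_eq _ hT]
  simp only [hsummand]
  have hLHS : ∑ a : Fin 3 → Fin (rho n), ∑ v : Fin 3 → Fin (K + 2),
      (Ecore (rest (gcell (rho n) K a v) L)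
          - (∑ k ∈ Finset.range n, t k * Wn k (rest (gcell (rho n) K a v) L)) / piN n
          - sN t n σ * ((rest (gcell (rho n) K a v) L).length : ℝ) ^ 2 / (rho n : ℝ) ^ 3)
      = ∑ a : Fin 3 → Fin (rho n), ∑ v : Fin 3 → Fin (K + 2),
          Ecore (rest (gcell (rho n) K a v) L)
        - (∑ k ∈ Finset.range n, t k * ∑ a : Fin 3 → Fin (rho n),
            ∑ v : Fin 3 → Fin (K + 2), Wn k (rest (gcell (rho n) K a v) L)) / piN n
        - sN t n σ * (∑ a : Fin 3 → Fin (rho n), ∑ v : Fin 3 → Fin (K + 2),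
            ((rest (gcell (rho n) K a v) L).length : ℝ) ^ 2) / (rho n : ℝ) ^ 3 := by
    rw [← pair_p3_swap n t (fun k (a : Fin 3 → Fin (rho n)) (v : Fin 3 → Fin (K + 2)) =>
      Wn k (rest (gcell (rho n) K a v) L))]
    simp only [Finset.sum_sub_distrib, Finset.sum_div, Finset.mul_sum]
  rw [hLHS]
  apply pair_p3_alg ((rho n : ℝ) ^ 3) (piN n) (sN t n σ) _ _ _ (Ecore L)
    (∑ k ∈ Finset.range n, t k * Wn k L) _ _ (σ + tailS t n) hΛ hπ hcore ?_ hser ?_
  · calc (rho n : ℝ) ^ 3 * (∑ k ∈ Finset.range n, t k * Wn k L) * piN n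
        = ∑ k ∈ Finset.range n, t k * (piN n * (rho n : ℝ) ^ 3 * Wn k L) := by
          rw [Finset.mul_sum, Finset.sum_mul]
          apply Finset.sum_congr rfl
          intro k _
          ring
      _ ≤ _ := Finset.sum_le_sum (fun k hk =>
          mul_le_mul_of_nonneg_left (hshort k (Finset.mem_range.mp hk)) (h.1 k))
  · have hsN : sN t n σ = 21 / 2 * (σ + tailS t n) := rfl
    rw [hsN]
    field_simp

end Vale.Agent.H96.P171
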