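import Mathlib
import Vale.Agent.H96.P171.Defs
import Vale.Agent.H96.P171.Meas
import Vale.Agent.H96.P171.Energy.Basic
import Vale.Agent.H96.P171.Energy.Split
import Vale.Agent.H96.P171.LP.Cells
import Vale.Agent.H96.P171.LP.Params
import Vale.Agent.H96.P171.LP.Pair

/-!
# P171 moonshot, LP part, file 4: the cell weight and the exponentiated form of (H2)
(co-architect helper79)

`uhat μ s l t2 y = exp(μ |y| - En t2 y + s |y|^2 / l^3)` is the weight of one cell;
`gridW .. a L` is the product over the cells of the shifted grid `a` of `uhat` of the sub-lists.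
Paper proof: `Vale/Agent/H96/P171/PLAN.md`, (H2)-(H3).
-/

open MeasureTheory
open scoped ENNReal BigOperators

namespace Vale.Agent.H96.P171

/-- the weight of one cell: `exp(μ N - E_(t2) + s N^2 / l^3)` -/
noncomputable def uhat (μ s : ℝ) (l : ℕ) (t2 : ℕ → ℝ) (y : List E3) : ℝ≥0∞ :=
  ENNReal.ofReal (Real.exp (μ * (y.length : ℝ) - En t2 y
    + s * (y.length : ℝ) ^ 2 / (l : ℝ) ^ 3))

/-- the weight of the shifted grid `a`: product of the cell weights of the sub-lists -/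
noncomputable def gridW (μ s : ℝ) (l K : ℕ) (t2 : ℕ → ℝ) (a : Fin 3 → Fin l) (L : List E3) :
    ℝ≥0∞ :=
  ∏ v : Fin 3 → Fin (K + 2), uhat μ s l t2 (rest (gcell l K a v) L)

/-- ROW LP-W1 (exponentiated (H2)): from `En_grid_lower` and `sum_length_rest`
(`∑_v |rest (gcell a v) L| = |L|` for every shift, `l^3` shifts), `ENNReal.ofReal_rpow_of_pos`,
`Real.exp_sum`. -/
theorem bw_le_prod_gridW (t : ℕ → ℝ) (h : Adm t) (μ σ : ℝ) (hσ : 0 ≤ σ) (n : ℕ) (hn : 4 ≤ n)
    (K : ℕ) (L : List E3) (hL : ∀ p ∈ L, p ∈ box ((K : ℝ) * (rho n : ℝ))) :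
    bw μ (addAt t n σ) L
      ≤ ∏ a : Fin 3 → Fin (rho n),
          gridW μ (sN t n σ) (rho n) K (tcut t n) a L ^ (((rho n : ℝ) ^ 3)⁻¹) := by
  have hlpos : 0 < rho n := rho_pos n
  have hl3 : (0 : ℝ) < (rho n : ℝ) ^ 3 := by positivity
  have hgrid := En_grid_lower t h σ hσ n hn K L hL
  have hlen : ∀ a : Fin 3 → Fin (rho n),
      ∑ v : Fin 3 → Fin (K + 2), ((rest (gcell (rho n) K a v) L).length : ℝ)
        = (L.length : ℝ) := by
    intro a
    have h1 := sum_length_rest (fun v => gcell (rho n) K a v)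
      (fun v v' hvv => gcell_disjoint (rho n) K a v v' hvv) L
      (fun p hp => Set.mem_iUnion.1 (box_subset_iUnion_gcell (rho n) K hlpos a (hL p hp)))
    exact_mod_cast h1
  have hR : ∀ a : Fin 3 → Fin (rho n),
      gridW μ (sN t n σ) (rho n) K (tcut t n) a L ^ (((rho n : ℝ) ^ 3)⁻¹) =
        ENNReal.ofReal (Real.exp (((rho n : ℝ) ^ 3)⁻¹ * (μ * (L.length : ℝ) -
          ∑ v : Fin 3 → Fin (K + 2), (En (tcut t n) (rest (gcell (rho n) K a v) L)
            - sN t n σ * ((rest (gcell (rho n) K a v) L).length : ℝ) ^ 2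
              / (rho n : ℝ) ^ 3)))) := by
    intro a
    unfold gridW uhat
    rw [← ENNReal.ofReal_prod_of_nonneg (fun v _ => (Real.exp_pos _).le), ← Real.exp_sum,
      ENNReal.ofReal_rpow_of_pos (Real.exp_pos _), ← Real.exp_mul, mul_comm]
    congr 3
    rw [← hlen a, Finset.mul_sum, ← Finset.sum_sub_distrib]
    apply Finset.sum_congr rfl
    intro v _
    ring
  rw [Finset.prod_congr rfl (fun a _ => hR a),
    ← ENNReal.ofReal_prod_of_nonneg (fun a _ => (Real.exp_pos _).le), ← Real.exp_sum]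
  unfold bw
  apply ENNReal.ofReal_le_ofReal
  apply Real.exp_le_exp.2
  rw [← Finset.mul_sum, Finset.sum_sub_distrib, Finset.sum_const, Finset.card_univ,
    nsmul_eq_mul, mul_sub]
  have hcard : ((Fintype.card (Fin 3 → Fin (rho n)) : ℕ) : ℝ) = (rho n : ℝ) ^ 3 := by
    simp
  have hq : ((rho n : ℝ) ^ 3)⁻¹ * ((rho n : ℝ) ^ 3 * (μ * (L.length : ℝ)))
      = μ * (L.length : ℝ) := by
    field_simp
  rw [hcard, hq]
  linarith

/-- ROW LP-W2 (measurability and translation invariance of the cell weight):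
`uhat μ s l t2 y = ofReal (exp (s |y|^2/l^3)) * bw μ t2 y`, then `LMeas_bw`, `LMeas_rest`,
`bw_map_add`. -/
theorem uhat_eq (μ s : ℝ) (l : ℕ) (t2 : ℕ → ℝ) (y : List E3) :
    uhat μ s l t2 y
      = ENNReal.ofReal (Real.exp (s * (y.length : ℝ) ^ 2 / (l : ℝ) ^ 3)) * bw μ t2 y := by
  unfold uhat bw
  rw [← ENNReal.ofReal_mul (Real.exp_pos _).le, ← Real.exp_add]
  congr 2
  ring

theorem LMeas_uhat (μ s : ℝ) (l : ℕ) (t2 : ℕ → ℝ) (h2 : Adm t2) : LMeas (uhat μ s l t2) := by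
  intro k
  have hm := LMeas_bw μ t2 h2 k
  have e : (fun x : Fin k → E3 => uhat μ s l t2 (List.ofFn x)) =
      fun x => ENNReal.ofReal (Real.exp (s * (k : ℝ) ^ 2 / (l : ℝ) ^ 3))
        * bw μ t2 (List.ofFn x) := by
    funext x
    rw [uhat_eq, List.length_ofFn]
  rw [e]
  exact hm.const_mul _

theorem LMeas_gridW (μ s : ℝ) (l K : ℕ) (t2 : ℕ → ℝ) (h2 : Adm t2) (a : Fin 3 → Fin l) :
    LMeas (gridW μ s l K t2 a) := by
  intro k
  unfold gridW
  exact Finset.measurable_prod _ (fun v _ =>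
    LMeas_rest _ (measurableSet_gcell l K a v) _ (LMeas_uhat μ s l t2 h2) k)

theorem uhat_map_add (μ s : ℝ) (l : ℕ) (t2 : ℕ → ℝ) (c : E3) (y : List E3) :
    uhat μ s l t2 (y.map (fun p => p + c)) = uhat μ s l t2 y := by
  rw [uhat_eq, uhat_eq, bw_map_add, List.length_map]

end Vale.Agent.H96.P171
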