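import Mathlib
import Vale.Agent.H96.P171.Defs
import Vale.Agent.H96.P171.Meas
import Vale.Agent.H96.P171.LP.Cells
import Vale.Agent.H96.P171.LP.Params
import Vale.Agent.H96.P171.LP.Weight

/-!
# P171 moonshot, LP part, file 5: Hoelder over the shifted grids and factorisation (H3)
(co-architect helper79)

`Xi (box (K l)) μ (t + σ e_n) ≤ (gInt [0,l)^3 uhat)^((K+2)^3)`, `l = rho n`.
Chain: `gInt_mono_fun` with `bw_le_prod_gridW`; `gInt_holder` over the `l^3` shifts
(`s = Finset.univ`, `p = fun _ => (l^3)⁻¹`, `LMeas_gridW`, `measurableSet_box`); for each shift: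
`gInt_mono_set` (`box_subset_iUnion_gcell`), `gInt_iUnion` (`measurableSet_gcell`,
`gcell_disjoint`, `LMeas_uhat`), `gcell_eq_image` and `gInt_translate` (`uhat_map_add`);
finally `∏_a (X^((K+2)^3))^(1/l^3) = X^((K+2)^3)` in `ENNReal` (`Fintype.card (Fin 3 → Fin l) = l^3`).
Paper proof: `Vale/Agent/H96/P171/PLAN.md`, (H3).
-/

open MeasureTheory
open scoped ENNReal BigOperators

namespace Vale.Agent.H96.P171

/-- the exponents of the Hoelder step add up to one -/
theorem grid_sum_inv (l : ℕ) (hl : 0 < l) : ∑ _a : Fin 3 → Fin l, ((l : ℝ) ^ 3)⁻¹ = 1 := by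
  have hl' : (0 : ℝ) < (l : ℝ) := by exact_mod_cast hl
  rw [Finset.sum_const, Finset.card_univ, Fintype.card_fun, Fintype.card_fin, Fintype.card_fin,
    nsmul_eq_mul]
  push_cast
  have h3 : (l : ℝ) ^ 3 ≠ 0 := by positivity
  field_simp

/-- a constant product over the shifts of the root is the number itself -/
theorem grid_prod_rpow (l : ℕ) (hl : 0 < l) (Y : ℝ≥0∞) :
    ∏ _a : Fin 3 → Fin l, Y ^ (((l : ℝ) ^ 3)⁻¹) = Y := by
  have hl' : (0 : ℝ) < (l : ℝ) := by exact_mod_cast hl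
  rw [Finset.prod_const, Finset.card_univ, Fintype.card_fun, Fintype.card_fin, Fintype.card_fin,
    ← ENNReal.rpow_natCast, ← ENNReal.rpow_mul]
  have h1 : ((l : ℝ) ^ 3)⁻¹ * ((l ^ 3 : ℕ) : ℝ) = 1 := by
    push_cast
    have h3 : (l : ℝ) ^ 3 ≠ 0 := by positivity
    field_simp
  rw [h1, ENNReal.rpow_one]

/-- ROW LP-G1 (one shift): factorisation over the cells of one grid. -/
theorem gInt_gridW_le (μ s : ℝ) (l K : ℕ) (hl : 0 < l) (t2 : ℕ → ℝ) (h2 : Adm t2)
    (a : Fin 3 → Fin l) :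
    gInt (box ((K : ℝ) * (l : ℝ))) (gridW μ s l K t2 a)
      ≤ gInt (cell0 l) (uhat μ s l t2) ^ ((K + 2) ^ 3) := by
  calc gInt (box ((K : ℝ) * (l : ℝ))) (gridW μ s l K t2 a)
      ≤ gInt (⋃ v : Fin 3 → Fin (K + 2), gcell l K a v) (gridW μ s l K t2 a) :=
        gInt_mono_set _ _ (box_subset_iUnion_gcell l K hl a) _
    _ = ∏ v : Fin 3 → Fin (K + 2), gInt (gcell l K a v) (uhat μ s l t2) :=
        gInt_iUnion (fun v : Fin 3 → Fin (K + 2) => gcell l K a v)
          (fun v => measurableSet_gcell l K a v) (fun v v' hv => gcell_disjoint l K a v v' hv)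
          (fun _ => uhat μ s l t2) (fun _ => LMeas_uhat μ s l t2 h2)
    _ = ∏ _v : Fin 3 → Fin (K + 2), gInt (cell0 l) (uhat μ s l t2) := by
        refine Finset.prod_congr rfl (fun v _ => ?_)
        rw [gcell_eq_image l K hl a v]
        exact gInt_translate (cell0 l) (gcorner l K a v) (uhat μ s l t2)
          (fun L => uhat_map_add μ s l t2 (gcorner l K a v) L)
    _ = gInt (cell0 l) (uhat μ s l t2) ^ ((K + 2) ^ 3) := by
        rw [Finset.prod_const, Finset.card_univ, Fintype.card_fun, Fintype.card_fin,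
          Fintype.card_fin]

/-- ROW LP-G2 (Hoelder over the shifts). -/
theorem Xi_box_le (t : ℕ → ℝ) (h : Adm t) (μ σ : ℝ) (hσ : 0 ≤ σ) (n : ℕ) (hn : 4 ≤ n) (K : ℕ) :
    Xi (box ((K : ℝ) * (rho n : ℝ))) μ (addAt t n σ)
      ≤ gInt (cell0 (rho n)) (uhat μ (sN t n σ) (rho n) (tcut t n)) ^ ((K + 2) ^ 3) := by
  have hl : 0 < rho n := rho_pos n
  have h2 : Adm (tcut t n) := Adm_tcut t h n hn
  unfold Xi
  calc gInt (box ((K : ℝ) * (rho n : ℝ))) (bw μ (addAt t n σ))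
      ≤ gInt (box ((K : ℝ) * (rho n : ℝ))) (fun L => ∏ a ∈ (Finset.univ : Finset (Fin 3 → Fin (rho n))),
          gridW μ (sN t n σ) (rho n) K (tcut t n) a L ^ (((rho n : ℝ) ^ 3)⁻¹)) :=
        gInt_mono_fun _ _ _ (fun L _ hL => bw_le_prod_gridW t h μ σ hσ n hn K L hL)
    _ ≤ ∏ a ∈ (Finset.univ : Finset (Fin 3 → Fin (rho n))),
          gInt (box ((K : ℝ) * (rho n : ℝ))) (gridW μ (sN t n σ) (rho n) K (tcut t n) a)
            ^ (((rho n : ℝ) ^ 3)⁻¹) :=
        gInt_holder Finset.univ _ (measurableSet_box _)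
          (fun a => gridW μ (sN t n σ) (rho n) K (tcut t n) a)
          (fun a _ => LMeas_gridW μ (sN t n σ) (rho n) K (tcut t n) h2 a)
          (fun _ => ((rho n : ℝ) ^ 3)⁻¹) (fun _ _ => by positivity) (grid_sum_inv (rho n) hl)
    _ ≤ ∏ _a ∈ (Finset.univ : Finset (Fin 3 → Fin (rho n))),
          (gInt (cell0 (rho n)) (uhat μ (sN t n σ) (rho n) (tcut t n)) ^ ((K + 2) ^ 3))
            ^ (((rho n : ℝ) ^ 3)⁻¹) :=
        Finset.prod_le_prod' (fun a _ => ENNReal.rpow_le_rpow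
          (gInt_gridW_le μ (sN t n σ) (rho n) K hl (tcut t n) h2 a) (by positivity))
    _ = gInt (cell0 (rho n)) (uhat μ (sN t n σ) (rho n) (tcut t n)) ^ ((K + 2) ^ 3) :=
        grid_prod_rpow (rho n) hl _

end Vale.Agent.H96.P171
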