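import Mathlib
import Vale.Agent.H96.P171.Defs
import Vale.Agent.H96.P171.Meas
import Vale.Agent.H96.P171.Bounds
import Vale.Agent.H96.P171.Fekete
import Vale.Agent.H96.P171.LP.Cells
import Vale.Agent.H96.P171.LP.Weight

/-!
# P171 moonshot, LP part, file 6: the j-trick (H4) (co-architect helper79)

`exp(s N^2/l^3) ≤ ∑_j exp(s (2 j N - j^2)/l^3)` (the term `j = N` is an equality), so the cell
weight is dominated by a series of Boltzmann weights with shifted chemical potential.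
Paper proof: `Vale/Agent/H96/P171/PLAN.md`, (H4).
-/

open MeasureTheory
open scoped ENNReal BigOperators

namespace Vale.Agent.H96.P171

/-- ROW LP-J1 (pointwise; `ENNReal.le_tsum` at `j = y.length`). -/
theorem uhat_le_tsum (μ s : ℝ) (l : ℕ) (t2 : ℕ → ℝ) (y : List E3) :
    uhat μ s l t2 y ≤ ∑' j : ℕ, ENNReal.ofReal (Real.exp (-(s * (j : ℝ) ^ 2 / (l : ℝ) ^ 3)))
      * bw (μ + 2 * s * (j : ℝ) / (l : ℝ) ^ 3) t2 y := by
  refine le_trans (le_of_eq ?_) (ENNReal.le_tsum y.length)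
  unfold uhat bw
  rw [← ENNReal.ofReal_mul (Real.exp_nonneg _), ← Real.exp_add]
  congr 2
  ring

/-- ROW LP-J2 (integrated; `gInt_mono_fun`, `gInt_tsum`, `gInt_const_mul`, `LMeas_bw`,
`gInt_mono_set` with `cell0_subset_box`). -/
theorem gInt_uhat_le (μ s : ℝ) (l : ℕ) (hl : 0 < l) (t2 : ℕ → ℝ) (h2 : Adm t2) :
    gInt (cell0 l) (uhat μ s l t2)
      ≤ ∑' j : ℕ, ENNReal.ofReal (Real.exp (-(s * (j : ℝ) ^ 2 / (l : ℝ) ^ 3)))
          * Xi (box (l : ℝ)) (μ + 2 * s * (j : ℝ) / (l : ℝ) ^ 3) t2 := by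
  have hm : ∀ j : ℕ, LMeas (fun y : List E3 =>
      ENNReal.ofReal (Real.exp (-(s * (j : ℝ) ^ 2 / (l : ℝ) ^ 3)))
        * bw (μ + 2 * s * (j : ℝ) / (l : ℝ) ^ 3) t2 y) := by
    intro j k
    exact (LMeas_bw (μ + 2 * s * (j : ℝ) / (l : ℝ) ^ 3) t2 h2 k).const_mul _
  have h1 : gInt (cell0 l) (uhat μ s l t2) ≤ gInt (cell0 l) (fun y : List E3 =>
      ∑' j : ℕ, ENNReal.ofReal (Real.exp (-(s * (j : ℝ) ^ 2 / (l : ℝ) ^ 3)))
        * bw (μ + 2 * s * (j : ℝ) / (l : ℝ) ^ 3) t2 y) :=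
    gInt_mono_fun _ _ _ (fun y _ _ => uhat_le_tsum μ s l t2 y)
  refine h1.trans ?_
  rw [gInt_tsum (cell0 l) _ hm]
  refine ENNReal.tsum_le_tsum (fun j => ?_)
  rw [gInt_const_mul (cell0 l) _ _ (LMeas_bw (μ + 2 * s * (j : ℝ) / (l : ℝ) ^ 3) t2 h2)]
  exact mul_le_mul_right (gInt_mono_set _ _ (cell0_subset_box l hl) _) _

/-- ROW LP-J3 (`logXi_le_Fp` with `ℓ = l - 1`, `one_le_Xi`, `Xi_ne_top`). -/
theorem Xi_box_le_exp_Fp (t2 : ℕ → ℝ) (h2 : Adm t2) (m : ℝ) (l : ℕ) (hl : 0 < l) :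
    Xi (box (l : ℝ)) m t2 ≤ ENNReal.ofReal (Real.exp (((l : ℝ) + 1) ^ 3 * Fp m t2)) := by
  have hl0 : (0 : ℝ) ≤ (l : ℝ) := Nat.cast_nonneg _
  have hne : Xi (box (l : ℝ)) m t2 ≠ ⊤ := Xi_ne_top t2 h2 m _ hl0
  have h1 : 1 ≤ Xi (box (l : ℝ)) m t2 := one_le_Xi _ m t2
  have h1r : (1 : ℝ) ≤ (Xi (box (l : ℝ)) m t2).toReal := by
    have := ENNReal.toReal_mono hne h1
    simpa using this
  have hF := logXi_le_Fp t2 h2 m (l - 1)
  have e1 : (((l - 1 : ℕ)) : ℝ) = (l : ℝ) - 1 := by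
    rw [Nat.cast_sub hl]
    simp
  rw [e1] at hF
  have e2 : (l : ℝ) - 1 + 1 = (l : ℝ) := by ring
  have e3 : (l : ℝ) - 1 + 2 = (l : ℝ) + 1 := by ring
  rw [e2, e3] at hF
  unfold logXi at hF
  have h2r : (Xi (box (l : ℝ)) m t2).toReal ≤ Real.exp (((l : ℝ) + 1) ^ 3 * Fp m t2) := by
    have hpos : (0 : ℝ) < (Xi (box (l : ℝ)) m t2).toReal := by linarith
    calc (Xi (box (l : ℝ)) m t2).toReal = Real.exp (Real.log (Xi (box (l : ℝ)) m t2).toReal) :=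
          (Real.exp_log hpos).symm
      _ ≤ Real.exp (((l : ℝ) + 1) ^ 3 * Fp m t2) := Real.exp_le_exp.2 hF
  rw [← ENNReal.ofReal_toReal hne]
  exact ENNReal.ofReal_le_ofReal h2r

end Vale.Agent.H96.P171
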