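import Mathlib
import Vale.Agent.H96.P171.Defs
import Vale.Agent.H96.P171.Bounds
import Vale.Agent.H96.P171.Fekete
import Vale.Agent.H96.P171.LP.Params
import Vale.Agent.H96.P171.LP.Grid
import Vale.Agent.H96.P171.LP.JTrick

/-!
# P171 moonshot, LP part, file 7: the CLAIM of (H) (co-architect helper79)

If the series `∑_j exp(-s j^2/l^3 + (l+1)^3 Fp (μ + 2 s j/l^3) t'')` is at most `S`, then
`Fp μ (t + σ e_n) ≤ log S / l^3` (`l = rho n`, `s = sN t n σ`, `t'' = tcut t n`).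
Proof: for every `K ≥ 1`, `Xi (box (K l)) ≤ (gInt cell0 uhat)^((K+2)^3)` (`Xi_box_le`),
`gInt cell0 uhat ≤ ∑_j e^(-s j^2/l^3) Xi (box l) (μ_j) t''` (`gInt_uhat_le`)
`≤ ∑_j ofReal (exp (...)) ≤ ofReal S` (`Xi_box_le_exp_Fp`, `Adm_tcut`); so
`logXi (K l) μ (t + σ e_n) ≤ (K+2)^3 log S`; divide by `(K l)^3` and let `K → ∞` along
`tendsto_pressure` (`Adm_addAt`).
Paper proof: `Vale/Agent/H96/P171/PLAN.md`, (H3)-(H4).
-/

open MeasureTheory Filter Topology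
open scoped ENNReal BigOperators

namespace Vale.Agent.H96.P171

/-- ROW LP-CL. -/
theorem Fp_addAt_le (t : ℕ → ℝ) (h : Adm t) (μ σ : ℝ) (hσ : 0 ≤ σ) (n : ℕ) (hn : 4 ≤ n)
    (S : ℝ) (hS : 1 ≤ S)
    (hsum : ∑' j : ℕ, ENNReal.ofReal (Real.exp (-(sN t n σ * (j : ℝ) ^ 2 / (rho n : ℝ) ^ 3)
        + ((rho n : ℝ) + 1) ^ 3 * Fp (μ + 2 * sN t n σ * (j : ℝ) / (rho n : ℝ) ^ 3) (tcut t n)))
      ≤ ENNReal.ofReal S) :
    Fp μ (addAt t n σ) ≤ Real.log S / (rho n : ℝ) ^ 3 := by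
  have hl : 0 < rho n := rho_pos n
  have hlR : (0 : ℝ) < (rho n : ℝ) := by exact_mod_cast hl
  have h2 : Adm (tcut t n) := Adm_tcut t h n hn
  have hX : gInt (cell0 (rho n)) (uhat μ (sN t n σ) (rho n) (tcut t n)) ≤ ENNReal.ofReal S := by
    refine le_trans (gInt_uhat_le μ (sN t n σ) (rho n) hl (tcut t n) h2) (le_trans ?_ hsum)
    refine ENNReal.tsum_le_tsum (fun j => ?_)
    rw [Real.exp_add, ENNReal.ofReal_mul (Real.exp_pos _).le]
    exact mul_le_mul' le_rfl (Xi_box_le_exp_Fp (tcut t n) h2 _ (rho n) hl)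
  have hK : ∀ K : ℕ, logXi ((K : ℝ) * (rho n : ℝ)) μ (addAt t n σ)
      ≤ ((K : ℝ) + 2) ^ 3 * Real.log S := by
    intro K
    have h3 : Xi (box ((K : ℝ) * (rho n : ℝ))) μ (addAt t n σ)
        ≤ ENNReal.ofReal S ^ ((K + 2) ^ 3) :=
      le_trans (Xi_box_le t h μ σ hσ n hn K) (pow_le_pow_left' hX _)
    have h4 : 1 ≤ Xi (box ((K : ℝ) * (rho n : ℝ))) μ (addAt t n σ) := one_le_Xi _ _ _
    have h5 : ENNReal.ofReal S ^ ((K + 2) ^ 3) ≠ ⊤ := ENNReal.pow_ne_top ENNReal.ofReal_ne_top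
    have h6 : (Xi (box ((K : ℝ) * (rho n : ℝ))) μ (addAt t n σ)).toReal ≤ S ^ ((K + 2) ^ 3) := by
      have h0 := ENNReal.toReal_mono h5 h3
      rwa [ENNReal.toReal_pow, ENNReal.toReal_ofReal (by linarith)] at h0
    have h7 : 0 < (Xi (box ((K : ℝ) * (rho n : ℝ))) μ (addAt t n σ)).toReal :=
      ENNReal.toReal_pos (lt_of_lt_of_le zero_lt_one h4).ne' (ne_top_of_le_ne_top h5 h3)
    unfold logXi
    calc Real.log (Xi (box ((K : ℝ) * (rho n : ℝ))) μ (addAt t n σ)).toReal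
        ≤ Real.log (S ^ ((K + 2) ^ 3)) := Real.log_le_log h7 h6
      _ = ((K : ℝ) + 2) ^ 3 * Real.log S := by
        rw [Real.log_pow]
        push_cast
        ring
  have hlim := tendsto_pressure (addAt t n σ) (Adm_addAt t h n σ hσ) μ
  have hKl : Tendsto (fun K : ℕ => (K : ℝ) * (rho n : ℝ)) atTop atTop :=
    Tendsto.atTop_mul_const hlR tendsto_natCast_atTop_atTop
  have ha := hlim.comp hKl
  have hb : Tendsto (fun K : ℕ => (1 + 2 / (K : ℝ)) ^ 3 * (Real.log S / (rho n : ℝ) ^ 3)) atTop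
      (𝓝 (Real.log S / (rho n : ℝ) ^ 3)) := by
    have h1 : Tendsto (fun K : ℕ => (2 : ℝ) / (K : ℝ)) atTop (𝓝 0) :=
      tendsto_const_div_atTop_nhds_zero_nat 2
    have h3 : Tendsto (fun K : ℕ => (1 + 2 / (K : ℝ)) ^ 3) atTop (𝓝 ((1 + 0) ^ 3)) :=
      (h1.const_add 1).pow 3
    have h4 := h3.mul_const (Real.log S / (rho n : ℝ) ^ 3)
    simpa using h4
  refine le_of_tendsto_of_tendsto ha hb ?_
  filter_upwards [eventually_ge_atTop 1] with K hK1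
  have hKR : (1 : ℝ) ≤ (K : ℝ) := by exact_mod_cast hK1
  have hKpos : (0 : ℝ) < (K : ℝ) := by linarith
  show logXi ((K : ℝ) * (rho n : ℝ)) μ (addAt t n σ) / ((K : ℝ) * (rho n : ℝ)) ^ 3 ≤ _
  rw [div_le_iff₀ (by positivity)]
  calc logXi ((K : ℝ) * (rho n : ℝ)) μ (addAt t n σ) ≤ ((K : ℝ) + 2) ^ 3 * Real.log S := hK K
    _ = (1 + 2 / (K : ℝ)) ^ 3 * (Real.log S / (rho n : ℝ) ^ 3) * ((K : ℝ) * (rho n : ℝ)) ^ 3 := by
        field_simp

end Vale.Agent.H96.P171
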