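import Mathlib

/-!
# P171 moonshot, LP part, file 8: cutting the j-sum (H5), abstract form (co-architect helper79)

Pure real analysis, Mathlib only.  `e_i = -s i^2/Λ + Λ κ G(u_i)`, `u_i = 2 s i/Λ`
(so `s i^2/Λ = Λ u_i^2/(4 s)`).  With `κ G(u) ≤ c0 + u^2/(16 s)`: `e_i ≤ Λ (c0 - 3 u_i^2/(16 s))`.
Let `J = {i : u_i^2 ≤ 32 s (c0+1)/3}` (a finite initial segment containing `0`, with at most
`sqrt(32 s (c0+1)/3) Λ/(2 s) + 1` elements).  For `i ∉ J`: `e_i ≤ -Λ - (3/8) s i^2/Λ`, and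
`∑_{i ≥ 1} exp(-(3/8)(s/Λ) i) ≤ 8 Λ/(3 s)`, `exp(-Λ) 8 Λ/(3 s) ≤ 1` because `exp Λ ≥ Λ^2/2`
and `Λ s ≥ 16/3`.  Let `j ∈ J` maximise `e_i` over `J`; `e_j ≥ e_0 = Λ κ G 0 ≥ 0`.
So the series is at most `|J| + 1` times `exp(e_j)`.
Paper proof: `Vale/Agent/H96/P171/PLAN.md`, (H5).
-/

open scoped ENNReal BigOperators

namespace Vale.Agent.H96.P171

/-- The geometric tail: `exp(-Λ) * q / (1 - q) ≤ 1` for `q = exp(-(3 s/(8 Λ)))`. -/
theorem lptail_geom (s Λ : ℝ) (hs : 0 < s) (hΛ : 1 ≤ Λ) (hΛs : 16 / 3 ≤ Λ * s) :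
    Real.exp (-Λ) * (Real.exp (-(3 * s / (8 * Λ))) * (1 - Real.exp (-(3 * s / (8 * Λ))))⁻¹)
      ≤ 1 := by
  have hΛ0 : 0 < Λ := by linarith
  set x : ℝ := 3 * s / (8 * Λ) with hx
  have hx0 : 0 < x := by positivity
  set q : ℝ := Real.exp (-x) with hq
  have hq0 : 0 < q := Real.exp_pos _
  have hq1 : q < 1 := by
    rw [hq]
    exact Real.exp_lt_one_iff.mpr (by linarith)
  have h1 : q * (1 + x) ≤ 1 := by
    have h2 : x + 1 ≤ Real.exp x := Real.add_one_le_exp x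
    have h3 : q * Real.exp x = 1 := by
      rw [hq, ← Real.exp_add]
      simp
    calc q * (1 + x) ≤ q * Real.exp x := by
          apply mul_le_mul_of_nonneg_left _ hq0.le
          linarith
      _ = 1 := h3
  have h4 : q * (1 - q)⁻¹ ≤ 1 / x := by
    rw [← div_eq_mul_inv, div_le_div_iff₀ (by linarith) hx0]
    nlinarith
  have h5 : Real.exp (-Λ) ≤ 2 / Λ ^ 2 := by
    have h6 : Λ ^ 2 / 2 ≤ Real.exp Λ := by
      have := Real.quadratic_le_exp_of_nonneg hΛ0.le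
      linarith
    have h7 : Real.exp (-Λ) = (Real.exp Λ)⁻¹ := Real.exp_neg Λ
    rw [h7, inv_le_comm₀ (Real.exp_pos Λ) (by positivity)]
    calc (2 / Λ ^ 2)⁻¹ = Λ ^ 2 / 2 := by rw [inv_div]
      _ ≤ Real.exp Λ := h6
  have h8 : 0 ≤ q * (1 - q)⁻¹ := by
    have : 0 < 1 - q := by linarith
    positivity
  calc Real.exp (-Λ) * (q * (1 - q)⁻¹) ≤ (2 / Λ ^ 2) * (1 / x) :=
        mul_le_mul h5 h4 h8 (by positivity)
    _ = 16 / (3 * (Λ * s)) := by
        rw [hx]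
        field_simp
        ring
    _ ≤ 1 := by
        rw [div_le_one (by positivity)]
        linarith

/-- ROW LP-T. -/
theorem jsum_le (s Λ κ c0 : ℝ) (hs : 0 < s) (hΛ : 1 ≤ Λ) (hΛs : 16 / 3 ≤ Λ * s) (hc0 : 0 ≤ c0)
    (G : ℝ → ℝ) (hG0 : 0 ≤ κ * G 0)
    (hG : ∀ u : ℝ, 0 ≤ u → κ * G u ≤ c0 + u ^ 2 / (16 * s)) :
    ∃ j : ℕ, (2 * s * (j : ℝ) / Λ) ^ 2 ≤ 32 * s * (c0 + 1) / 3 ∧
      0 ≤ -(s * (j : ℝ) ^ 2 / Λ) + Λ * (κ * G (2 * s * (j : ℝ) / Λ)) ∧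
      ∑' i : ℕ, ENNReal.ofReal
          (Real.exp (-(s * (i : ℝ) ^ 2 / Λ) + Λ * (κ * G (2 * s * (i : ℝ) / Λ))))
        ≤ ENNReal.ofReal ((Real.sqrt (32 * s * (c0 + 1) / 3) * Λ / (2 * s) + 2)
            * Real.exp (-(s * (j : ℝ) ^ 2 / Λ) + Λ * (κ * G (2 * s * (j : ℝ) / Λ)))) := by
  have hΛ0 : 0 < Λ := by linarith
  set e : ℕ → ℝ := fun i => -(s * (i : ℝ) ^ 2 / Λ) + Λ * (κ * G (2 * s * (i : ℝ) / Λ)) with he
  set M : ℝ := 32 * s * (c0 + 1) / 3 with hM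
  have hM0 : 0 ≤ M := by positivity
  set B : ℝ := Real.sqrt M * Λ / (2 * s) with hB
  have hB0 : 0 ≤ B := by positivity
  set k : ℕ := ⌊B⌋₊ + 1 with hk
  have hmem : ∀ i : ℕ, i < k → (2 * s * (i : ℝ) / Λ) ^ 2 ≤ M := by
    intro i hi
    have h1 : (i : ℝ) ≤ B := by
      have : i ≤ ⌊B⌋₊ := by omega
      exact (Nat.le_floor_iff hB0).mp this
    have h2 : 2 * s * (i : ℝ) / Λ ≤ Real.sqrt M := by
      rw [div_le_iff₀ hΛ0]
      rw [hB, le_div_iff₀ (by positivity)] at h1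
      linarith
    have h3 : 0 ≤ 2 * s * (i : ℝ) / Λ := by positivity
    calc (2 * s * (i : ℝ) / Λ) ^ 2 ≤ (Real.sqrt M) ^ 2 := pow_le_pow_left₀ h3 h2 2
      _ = M := Real.sq_sqrt hM0
  have hnot : ∀ i : ℕ, k ≤ i → M < (2 * s * (i : ℝ) / Λ) ^ 2 := by
    intro i hi
    have h1 : B < (i : ℝ) := by
      have h2 : B < (⌊B⌋₊ : ℝ) + 1 := Nat.lt_floor_add_one B
      have h3 : ((⌊B⌋₊ : ℝ) + 1) ≤ (i : ℝ) := by exact_mod_cast hi
      linarith
    have h2 : Real.sqrt M < 2 * s * (i : ℝ) / Λ := by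
      rw [lt_div_iff₀ hΛ0]
      rw [hB, div_lt_iff₀ (by positivity)] at h1
      linarith
    calc M = (Real.sqrt M) ^ 2 := (Real.sq_sqrt hM0).symm
      _ < (2 * s * (i : ℝ) / Λ) ^ 2 := pow_lt_pow_left₀ h2 (Real.sqrt_nonneg M) (by norm_num)
  -- the general bound
  have hbound : ∀ i : ℕ, e i ≤ Λ * c0 - 3 / 4 * (s * (i : ℝ) ^ 2 / Λ) := by
    intro i
    have h1 := hG (2 * s * (i : ℝ) / Λ) (by positivity)
    have h2 : Λ * ((2 * s * (i : ℝ) / Λ) ^ 2 / (16 * s)) = 1 / 4 * (s * (i : ℝ) ^ 2 / Λ) := by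
      field_simp
      ring
    have h3 : Λ * (κ * G (2 * s * (i : ℝ) / Λ))
        ≤ Λ * (c0 + (2 * s * (i : ℝ) / Λ) ^ 2 / (16 * s)) :=
      mul_le_mul_of_nonneg_left h1 hΛ0.le
    rw [mul_add, h2] at h3
    simp only [he]
    linarith
  -- the tail bound
  set x : ℝ := 3 * s / (8 * Λ) with hx
  have hx0 : 0 < x := by positivity
  have htail : ∀ i : ℕ, k ≤ i → e i ≤ -Λ - x * (i : ℝ) := by
    intro i hi
    have h1 := hbound i
    have h2 := hnot i hi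
    have h3 : (2 * s * (i : ℝ) / Λ) ^ 2 = 4 * s / Λ * (s * (i : ℝ) ^ 2 / Λ) := by
      field_simp
      ring
    have h4 : Λ * (c0 + 1) < 3 / 8 * (s * (i : ℝ) ^ 2 / Λ) := by
      rw [h3, hM] at h2
      have h5 : 32 * s * (c0 + 1) / 3 * (Λ / (4 * s)) < 4 * s / Λ * (s * (i : ℝ) ^ 2 / Λ) * (Λ / (4 * s)) :=
        mul_lt_mul_of_pos_right h2 (by positivity)
      have h6 : 32 * s * (c0 + 1) / 3 * (Λ / (4 * s)) = 8 / 3 * (Λ * (c0 + 1)) := by
        field_simp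
        ring
      have h7 : 4 * s / Λ * (s * (i : ℝ) ^ 2 / Λ) * (Λ / (4 * s)) = s * (i : ℝ) ^ 2 / Λ := by
        field_simp
      rw [h6, h7] at h5
      linarith
    have h8 : (1 : ℝ) ≤ (i : ℝ) := by
      have : 1 ≤ i := by omega
      exact_mod_cast this
    have h9 : x * (i : ℝ) ≤ 3 / 8 * (s * (i : ℝ) ^ 2 / Λ) := by
      have h10 : 3 / 8 * (s * (i : ℝ) ^ 2 / Λ) = x * (i : ℝ) ^ 2 := by
        rw [hx]
        field_simp
      rw [h10]
      have : (i : ℝ) ≤ (i : ℝ) ^ 2 := by nlinarith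
      exact mul_le_mul_of_nonneg_left this hx0.le
    linarith
  -- the maximiser
  have hk0 : 0 < k := by omega
  obtain ⟨j, hjmem, hjmax⟩ := Finset.exists_max_image (Finset.range k) e
    ⟨0, Finset.mem_range.mpr hk0⟩
  have hjk : j < k := Finset.mem_range.mp hjmem
  have he0 : 0 ≤ e 0 := by
    simp only [he]
    have : Λ * (κ * G (2 * s * ((0 : ℕ) : ℝ) / Λ)) = Λ * (κ * G 0) := by
      norm_num
    rw [this]
    have : 0 ≤ Λ * (κ * G 0) := mul_nonneg hΛ0.le hG0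
    norm_num
    linarith
  have hej : 0 ≤ e j := he0.trans (hjmax 0 (Finset.mem_range.mpr hk0))
  refine ⟨j, hmem j hjk, hej, ?_⟩
  -- split the series
  have hsplit := Summable.sum_add_tsum_nat_add'
    (f := fun i : ℕ => ENNReal.ofReal (Real.exp (e i))) (k := k) ENNReal.summable
  rw [← hsplit]
  -- head
  have hhead : ∑ i ∈ Finset.range k, ENNReal.ofReal (Real.exp (e i))
      ≤ ENNReal.ofReal ((k : ℝ) * Real.exp (e j)) := by
    calc ∑ i ∈ Finset.range k, ENNReal.ofReal (Real.exp (e i))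
        ≤ ∑ _i ∈ Finset.range k, ENNReal.ofReal (Real.exp (e j)) :=
          Finset.sum_le_sum (fun i hi =>
            ENNReal.ofReal_le_ofReal (Real.exp_le_exp.mpr (hjmax i hi)))
      _ = ENNReal.ofReal ((k : ℝ) * Real.exp (e j)) := by
          rw [Finset.sum_const, Finset.card_range, nsmul_eq_mul,
            ENNReal.ofReal_mul (Nat.cast_nonneg k), ENNReal.ofReal_natCast]
  -- tail
  set q : ℝ := Real.exp (-x) with hq
  have hq0 : 0 < q := Real.exp_pos _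
  have hq1 : q < 1 := by
    rw [hq]
    exact Real.exp_lt_one_iff.mpr (by linarith)
  have hterm : ∀ i : ℕ, Real.exp (e (i + k)) ≤ Real.exp (-Λ) * q * q ^ i := by
    intro i
    have h1 := htail (i + k) (by omega)
    have h2 : ((i + k : ℕ) : ℝ) ≥ (i : ℝ) + 1 := by
      have : i + 1 ≤ i + k := by omega
      exact_mod_cast this
    have h3 : e (i + k) ≤ -Λ + (-x) + (i : ℝ) * (-x) := by
      have : x * ((i : ℝ) + 1) ≤ x * ((i + k : ℕ) : ℝ) := mul_le_mul_of_nonneg_left h2 hx0.le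
      linarith
    calc Real.exp (e (i + k)) ≤ Real.exp (-Λ + (-x) + (i : ℝ) * (-x)) := Real.exp_le_exp.mpr h3
      _ = Real.exp (-Λ) * q * q ^ i := by
          rw [Real.exp_add, Real.exp_add, Real.exp_nat_mul]
  have hsum : Summable (fun i : ℕ => Real.exp (-Λ) * q * q ^ i) :=
    (summable_geometric_of_lt_one hq0.le hq1).mul_left _
  have htsum : ∑' i : ℕ, Real.exp (-Λ) * q * q ^ i = Real.exp (-Λ) * (q * (1 - q)⁻¹) := by
    rw [tsum_mul_left, tsum_geometric_of_lt_one hq0.le hq1]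
    ring
  have htailsum : ∑' i : ℕ, ENNReal.ofReal (Real.exp (e (i + k)))
      ≤ ENNReal.ofReal (Real.exp (e j)) := by
    calc ∑' i : ℕ, ENNReal.ofReal (Real.exp (e (i + k)))
        ≤ ∑' i : ℕ, ENNReal.ofReal (Real.exp (-Λ) * q * q ^ i) :=
          ENNReal.tsum_le_tsum (fun i => ENNReal.ofReal_le_ofReal (hterm i))
      _ = ENNReal.ofReal (∑' i : ℕ, Real.exp (-Λ) * q * q ^ i) :=
          (ENNReal.ofReal_tsum_of_nonneg (fun i => by positivity) hsum).symm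
      _ ≤ ENNReal.ofReal 1 := by
          rw [htsum]
          exact ENNReal.ofReal_le_ofReal (lptail_geom s Λ hs hΛ hΛs)
      _ ≤ ENNReal.ofReal (Real.exp (e j)) :=
          ENNReal.ofReal_le_ofReal (Real.one_le_exp hej)
  -- assemble
  have hkB : (k : ℝ) ≤ B + 1 := by
    rw [hk]
    push_cast
    have := Nat.floor_le hB0
    linarith
  calc ∑ i ∈ Finset.range k, ENNReal.ofReal (Real.exp (e i))
        + ∑' i : ℕ, ENNReal.ofReal (Real.exp (e (i + k)))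
      ≤ ENNReal.ofReal ((k : ℝ) * Real.exp (e j)) + ENNReal.ofReal (Real.exp (e j)) :=
        add_le_add hhead htailsum
    _ = ENNReal.ofReal ((k : ℝ) * Real.exp (e j) + Real.exp (e j)) :=
        (ENNReal.ofReal_add (by positivity) (by positivity)).symm
    _ ≤ ENNReal.ofReal ((B + 2) * Real.exp (e j)) := by
        apply ENNReal.ofReal_le_ofReal
        have : 0 ≤ Real.exp (e j) := (Real.exp_pos _).le
        nlinarith

end Vale.Agent.H96.P171
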