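import Mathlib
import Vale.Agent.H96.P171.Defs
import Vale.Agent.H96.P171.Fekete
import Vale.Agent.H96.P171.Growth
import Vale.Agent.H96.P171.LP.Params
import Vale.Agent.H96.P171.LP.Claim
import Vale.Agent.H96.P171.LP.Tail

/-!
# P171 moonshot, LP part, file 9: the statement (H5) (co-architect helper79)

`hfive_step`: for one `n` satisfying explicit conditions, the CLAIM (`Fp_addAt_le`) and the
tail cut (`jsum_le` with `Λ = l^3`, `κ = ((l+1)/l)^3 ≤ 2`, `G u = Fp (μ + u) (tcut t n)`,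
`c0 = 2 + (|μ| + |C|)^2/336`; the hypothesis `hgrow` is `growth (2 ∑ t) 336`; `s ≤ 21` so
`16 s ≤ 336`; `∑ tcut ≤ ∑ t / piN ≤ 2 ∑ t`) give a shift `u = 2 s j/l^3` of `μ`.
`hfive`: for all large `n` (`eventually_params`) the errors are `≤ ε σ`:
`Fp m (tcut t n) ≤ Fp m (fun k => t k / piN n)` (`Fp_mono`, `tcut_le`) and
`t/π = (1 - δ) t + δ (2 t)`, `δ = 1/π - 1 ∈ [0,1]`, so `Fp m (t/π) ≤ Fp m t + δ Fp m (2 t)`
(`Fp_convex`, `Fp_nonneg`); `Fp m (2 t) ≤ exp (m + B)` (`Fp_le`) bounds the error terms.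
Paper proof: `Vale/Agent/H96/P171/PLAN.md`, (H5).
-/

open Filter Topology
open scoped ENNReal BigOperators

namespace Vale.Agent.H96.P171

/-- `(L + 1)^3 ≤ 2 L^3` for `L ≥ 4` -/
lemma hfive_cube_le (L : ℝ) (hL : 4 ≤ L) : (L + 1) ^ 3 ≤ 2 * L ^ 3 := by
  have h : 2 * L ^ 3 - (L + 1) ^ 3 = (L - 4) * (L ^ 2 + L + 1) + 3 := by ring
  have h2 : 0 ≤ (L - 4) * (L ^ 2 + L + 1) := by
    apply mul_nonneg (by linarith)
    nlinarith [sq_nonneg L]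
  linarith

/-- the growth bound along a nonnegative shift, with the constants of `hfive_step` -/
lemma hfive_growth (x μ C u : ℝ) (hu : 0 ≤ u)
    (hx : x ≤ 1 + (max (μ + u + C) 0) ^ 2 / (4 * 336)) :
    x ≤ 1 + (|μ| + |C|) ^ 2 / 672 + u ^ 2 / 672 := by
  have h1 : 0 ≤ max (μ + u + C) 0 := le_max_right _ _
  have h2 : max (μ + u + C) 0 ≤ |μ| + |C| + u := by
    apply max_le
    · have := le_abs_self μ
      have := le_abs_self C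
      linarith
    · have := abs_nonneg μ
      have := abs_nonneg C
      linarith
  have h3 : (max (μ + u + C) 0) ^ 2 ≤ (|μ| + |C| + u) ^ 2 := pow_le_pow_left₀ h1 h2 2
  have h4 : (|μ| + |C| + u) ^ 2 ≤ 2 * (|μ| + |C|) ^ 2 + 2 * u ^ 2 := by
    nlinarith [sq_nonneg (|μ| + |C| - u)]
  have h5 : (max (μ + u + C) 0) ^ 2 / (4 * 336) ≤ (2 * (|μ| + |C|) ^ 2 + 2 * u ^ 2) / (4 * 336) :=
    div_le_div_of_nonneg_right (le_trans h3 h4) (by norm_num)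
  have h6 : (2 * (|μ| + |C|) ^ 2 + 2 * u ^ 2) / (4 * 336)
      = (|μ| + |C|) ^ 2 / 672 + u ^ 2 / 672 := by ring
  linarith

/-- ROW LP-H5a. -/
theorem hfive_step (t : ℕ → ℝ) (h : Adm t) (μ C : ℝ)
    (hgrow : ∀ t2 : ℕ → ℝ, Adm t2 → ∑' k, t2 k ≤ 2 * ∑' k, t k → ∀ m : ℝ,
      Fp m t2 ≤ 1 + (max (m + C) 0) ^ 2 / (4 * 336))
    (σ : ℝ) (hσ : 0 < σ) (hσ1 : σ ≤ 1) (n : ℕ) (hn : 4 ≤ n) (hπ : 1 / 2 ≤ piN n)
    (hτ : tailS t n ≤ σ) (hΛ : 16 / 3 ≤ (rho n : ℝ) ^ 3 * (21 / 2 * σ)) :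
    ∃ u : ℝ, 0 ≤ u ∧ u ^ 2 ≤ 32 * sN t n σ * (3 + (|μ| + |C|) ^ 2 / 336) / 3 ∧
      Fp μ (addAt t n σ) ≤ -(u ^ 2 / (4 * sN t n σ))
        + (((rho n : ℝ) + 1) / (rho n : ℝ)) ^ 3 * Fp (μ + u) (tcut t n)
        + Real.log (Real.sqrt (32 * sN t n σ * (3 + (|μ| + |C|) ^ 2 / 336) / 3)
            * (rho n : ℝ) ^ 3 / (2 * sN t n σ) + 2) / (rho n : ℝ) ^ 3 := by
  have hτ0 : 0 ≤ tailS t n := tailS_nonneg t h n
  have hAt : Adm (tcut t n) := Adm_tcut t h n hn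
  have hπ0 : 0 < piN n := piN_pos n hn
  have hsumt0 : 0 ≤ ∑' k, t k := tsum_nonneg h.1
  have htsum : ∑' k, tcut t n k ≤ 2 * ∑' k, t k := by
    have h1 := tsum_tcut_le t h n hn
    have h2 : (∑' k, t k) / piN n ≤ 2 * ∑' k, t k := by
      rw [div_le_iff₀ hπ0]
      have : (∑' k, t k) * (1 / 2) ≤ (∑' k, t k) * piN n :=
        mul_le_mul_of_nonneg_left hπ hsumt0
      linarith
    linarith
  have hG := hgrow (tcut t n) hAt htsum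
  have hFpc := Fp_addAt_le t h μ σ hσ.le n hn
  have hrho5 : 5 ≤ rho n := by
    unfold rho
    exact le_trans (by omega) (Nat.self_le_factorial (n + 1))
  obtain ⟨l, hl⟩ : ∃ l : ℝ, l = (rho n : ℝ) := ⟨_, rfl⟩
  obtain ⟨s, hs⟩ : ∃ s : ℝ, s = sN t n σ := ⟨_, rfl⟩
  have hs_eq : s = 21 / 2 * (σ + tailS t n) := by
    rw [hs]
    rfl
  rw [← hl, ← hs]
  rw [← hl] at hΛ
  rw [← hl, ← hs] at hFpc
  have hl5 : (5 : ℝ) ≤ l := by
    rw [hl]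
    exact_mod_cast hrho5
  have hl0 : 0 < l := by linarith
  have hl3 : 0 < l ^ 3 := by positivity
  have hl31 : 1 ≤ l ^ 3 := one_le_pow₀ (by linarith)
  have hs0 : 0 < s := by
    rw [hs_eq]
    linarith
  have hs21 : s ≤ 21 := by
    rw [hs_eq]
    linarith
  have hsσ : 21 / 2 * σ ≤ s := by
    rw [hs_eq]
    linarith
  obtain ⟨κ, hκ⟩ : ∃ κ : ℝ, κ = ((l + 1) / l) ^ 3 := ⟨_, rfl⟩
  have hκ0 : 0 ≤ κ := by
    rw [hκ]
    positivity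
  have hκ2 : κ ≤ 2 := by
    rw [hκ, div_pow, div_le_iff₀ hl3]
    exact hfive_cube_le l (by linarith)
  have hκl : l ^ 3 * κ = (l + 1) ^ 3 := by
    rw [hκ, div_pow]
    field_simp
  rw [← hκ]
  obtain ⟨c0, hc0⟩ : ∃ c0 : ℝ, c0 = 2 + (|μ| + |C|) ^ 2 / 336 := ⟨_, rfl⟩
  have hc0' : 0 ≤ c0 := by
    rw [hc0]
    positivity
  have hc01 : 32 * s * (c0 + 1) / 3 = 32 * s * (3 + (|μ| + |C|) ^ 2 / 336) / 3 := by
    rw [hc0]
    ring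
  have hΛs : 16 / 3 ≤ l ^ 3 * s := le_trans hΛ (mul_le_mul_of_nonneg_left hsσ hl3.le)
  have hG0 : 0 ≤ κ * Fp (μ + 0) (tcut t n) := mul_nonneg hκ0 (Fp_nonneg _ hAt _)
  have hG' : ∀ u : ℝ, 0 ≤ u → κ * Fp (μ + u) (tcut t n) ≤ c0 + u ^ 2 / (16 * s) := by
    intro u hu
    have g1 := hfive_growth (Fp (μ + u) (tcut t n)) μ C u hu (hG (μ + u))
    have g2 : 0 ≤ Fp (μ + u) (tcut t n) := Fp_nonneg _ hAt _
    have g3 : κ * Fp (μ + u) (tcut t n) ≤ 2 * Fp (μ + u) (tcut t n) :=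
      mul_le_mul_of_nonneg_right hκ2 g2
    have g4 : u ^ 2 / 336 ≤ u ^ 2 / (16 * s) :=
      div_le_div_of_nonneg_left (sq_nonneg u) (by positivity) (by linarith)
    rw [hc0]
    linarith
  obtain ⟨j, hj1, hj2, hj3⟩ := jsum_le s (l ^ 3) κ c0 hs0 hl31 hΛs hc0'
    (fun u => Fp (μ + u) (tcut t n)) hG0 hG'
  rw [hc01] at hj1 hj3
  obtain ⟨P, hP⟩ : ∃ P : ℝ, P = Real.sqrt (32 * s * (3 + (|μ| + |C|) ^ 2 / 336) / 3) * l ^ 3
      / (2 * s) + 2 := ⟨_, rfl⟩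
  rw [← hP] at hj3 ⊢
  have hP2 : 2 ≤ P := by
    rw [hP]
    have : 0 ≤ Real.sqrt (32 * s * (3 + (|μ| + |C|) ^ 2 / 336) / 3) * l ^ 3 / (2 * s) := by
      positivity
    linarith
  obtain ⟨e, he⟩ : ∃ e : ℝ, e = -(s * (j : ℝ) ^ 2 / l ^ 3)
      + l ^ 3 * (κ * Fp (μ + 2 * s * (j : ℝ) / l ^ 3) (tcut t n)) := ⟨_, rfl⟩
  have hj2' : 0 ≤ e := by
    rw [he]
    exact hj2
  have hj3' : ∑' i : ℕ, ENNReal.ofReal (Real.exp (-(s * (i : ℝ) ^ 2 / l ^ 3)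
      + l ^ 3 * (κ * Fp (μ + 2 * s * (i : ℝ) / l ^ 3) (tcut t n))))
      ≤ ENNReal.ofReal (P * Real.exp e) := by
    rw [he]
    exact hj3
  have hS1 : 1 ≤ P * Real.exp e := by
    have h1 : 1 ≤ Real.exp e := Real.one_le_exp hj2'
    have h2 : (1 : ℝ) ≤ P := by linarith
    calc (1 : ℝ) = 1 * 1 := by ring
      _ ≤ P * Real.exp e := mul_le_mul h2 h1 zero_le_one (by linarith)
  have hFp := hFpc (P * Real.exp e) hS1 (by
    refine le_trans (le_of_eq ?_) hj3'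
    refine tsum_congr (fun i => ?_)
    congr 2
    rw [← mul_assoc, hκl])
  have hP0 : 0 < P := by linarith
  rw [Real.log_mul hP0.ne' (Real.exp_pos _).ne', Real.log_exp, add_div] at hFp
  refine ⟨2 * s * (j : ℝ) / l ^ 3, by positivity, hj1, ?_⟩
  have he2 : e / l ^ 3 = -((2 * s * (j : ℝ) / l ^ 3) ^ 2 / (4 * s))
      + κ * Fp (μ + 2 * s * (j : ℝ) / l ^ 3) (tcut t n) := by
    rw [he]
    field_simp
    ring
  rw [he2] at hFp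
  linarith

/-- ROW LP-H5b. -/
theorem hfive (t : ℕ → ℝ) (h : Adm t) (μ : ℝ) :
    ∃ C0 : ℝ, 0 ≤ C0 ∧ ∀ σ : ℝ, 0 < σ → σ ≤ 1 → ∀ ε : ℝ, 0 < ε → ε ≤ 1 →
      ∃ n0 : ℕ, ∀ n : ℕ, n0 ≤ n → ∃ u s : ℝ, 0 ≤ u ∧ u ≤ C0 * Real.sqrt σ ∧
        21 / 2 * σ ≤ s ∧ s ≤ 21 / 2 * σ * (1 + ε) ∧
        Fp μ (addAt t n σ) ≤ Fp (μ + u) t - u ^ 2 / (4 * s) + ε * σ := by
  obtain ⟨C, hC⟩ := growth (2 * ∑' k, t k) 336 (by norm_num)
  have hT0 : 0 ≤ ∑' k, t k := tsum_nonneg h.1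
  obtain ⟨c, hc⟩ : ∃ c : ℝ, c = 3 + (|μ| + |C|) ^ 2 / 336 := ⟨_, rfl⟩
  have hcpos : 0 < c := by rw [hc]; positivity
  obtain ⟨C0, hC0⟩ : ∃ C0 : ℝ, C0 = Real.sqrt (224 * c) := ⟨_, rfl⟩
  have hC0nn : 0 ≤ C0 := by rw [hC0]; exact Real.sqrt_nonneg _
  have hC0sq : C0 ^ 2 = 224 * c := by rw [hC0]; exact Real.sq_sqrt (by positivity)
  obtain ⟨M, hM⟩ : ∃ M : ℝ, M = 1 + (|μ| + C0 + |C|) ^ 2 / (4 * 336) := ⟨_, rfl⟩
  have hM1 : 1 ≤ M := by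
    have h0 : 0 ≤ (|μ| + C0 + |C|) ^ 2 / (4 * 336) := by positivity
    linarith
  refine ⟨C0, hC0nn, ?_⟩
  intro σ hσ hσ1 ε hε hε1
  obtain ⟨δ, hδ⟩ : ∃ δ : ℝ, δ = ε * σ / (3 * M + 1) := ⟨_, rfl⟩
  have hδpos : 0 < δ := by rw [hδ]; positivity
  have hfin : 3 * δ * M + δ = ε * σ := by
    rw [hδ]; field_simp
  have hεσ : ε * σ ≤ σ := mul_le_of_le_one_left hσ.le hε1
  have hδle : δ ≤ ε * σ := by
    have h0 : 0 ≤ 3 * δ * M := mul_nonneg (mul_nonneg (by norm_num) hδpos.le) (by linarith)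
    linarith
  have hδ1 : δ ≤ 1 := by linarith
  have hsσ0 : 0 ≤ Real.sqrt σ := Real.sqrt_nonneg σ
  have hsσ1 : Real.sqrt σ ≤ 1 := Real.sqrt_le_one.mpr hσ1
  have hsσsq : Real.sqrt σ ^ 2 = σ := Real.sq_sqrt hσ.le
  obtain ⟨a, ha⟩ : ∃ a : ℝ, a = C0 * Real.sqrt σ / (21 * σ) := ⟨_, rfl⟩
  have ha0 : 0 ≤ a := by rw [ha]; positivity
  obtain ⟨n0, hn0⟩ := eventually_params t h δ a (21 / 2 * σ) hδpos ha0 (by positivity)
  refine ⟨n0, fun n hn => ?_⟩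
  obtain ⟨hn4, hπ, hπδ, hτ, hκ, hlog, hΛ⟩ := hn0 n hn
  have hτσ : tailS t n ≤ σ := by linarith
  obtain ⟨u, hu0, hu2, hmain⟩ := hfive_step t h μ C hC σ hσ hσ1 n hn4 hπ hτσ hΛ
  have htail0 : 0 ≤ tailS t n := tailS_nonneg t h n
  obtain ⟨s, hs⟩ : ∃ s : ℝ, s = sN t n σ := ⟨_, rfl⟩
  rw [← hs, ← hc] at hu2 hmain
  have hs_lo : 21 / 2 * σ ≤ s := by rw [hs]; unfold sN; linarith
  have hs_hi : s ≤ 21 / 2 * σ * (1 + ε) := by rw [hs]; unfold sN; linarith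
  have hs_pos : 0 < s := by linarith
  have hs21 : s ≤ 21 * σ := by rw [hs]; unfold sN; linarith
  have h32 : 32 * s * c / 3 ≤ (C0 * Real.sqrt σ) ^ 2 := by
    rw [mul_pow, hC0sq, hsσsq]
    have h0 : s * c ≤ 21 * σ * c := mul_le_mul_of_nonneg_right hs21 hcpos.le
    linarith
  have huC : u ≤ C0 * Real.sqrt σ := by
    have h1 : u ^ 2 ≤ (C0 * Real.sqrt σ) ^ 2 := le_trans hu2 h32
    have h2 : 0 ≤ C0 * Real.sqrt σ := mul_nonneg hC0nn hsσ0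
    exact (pow_le_pow_iff_left₀ hu0 h2 two_ne_zero).mp h1
  have huC0 : u ≤ C0 := le_trans huC (mul_le_of_le_one_right hC0nn hsσ1)
  have hFM : ∀ t2 : ℕ → ℝ, Adm t2 → ∑' k, t2 k ≤ 2 * ∑' k, t k → Fp (μ + u) t2 ≤ M := by
    intro t2 h2 hle
    have h1 := hC t2 h2 hle (μ + u)
    have h2' : max (μ + u + C) 0 ≤ |μ| + C0 + |C| := by
      apply max_le
      · have e1 := le_abs_self μ
        have e2 := le_abs_self C
        linarith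
      · positivity
    have h3 : (max (μ + u + C) 0) ^ 2 ≤ (|μ| + C0 + |C|) ^ 2 :=
      pow_le_pow_left₀ (le_max_right _ _) h2' 2
    have h4 : (max (μ + u + C) 0) ^ 2 / (4 * 336) ≤ (|μ| + C0 + |C|) ^ 2 / (4 * 336) :=
      div_le_div_of_nonneg_right h3 (by norm_num)
    rw [hM]
    linarith
  have hadm2 : Adm (fun k => 2 * t k) :=
    ⟨fun k => mul_nonneg (by norm_num) (h.1 k), h.2.mul_left 2⟩
  have hF_t : Fp (μ + u) t ≤ M := hFM t h (by linarith)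
  have hF_2t : Fp (μ + u) (fun k => 2 * t k) ≤ M := hFM _ hadm2 (by rw [tsum_mul_left])
  have hF0 : 0 ≤ Fp (μ + u) t := Fp_nonneg t h _
  have hF20 : 0 ≤ Fp (μ + u) (fun k => 2 * t k) := Fp_nonneg _ hadm2 _
  have hπpos : 0 < piN n := piN_pos n hn4
  have hπ1 : piN n ≤ 1 := piN_le_one n
  obtain ⟨dπ, hdπ⟩ : ∃ dπ : ℝ, dπ = 1 / piN n - 1 := ⟨_, rfl⟩
  have hdπ0 : 0 ≤ dπ := by
    have h1 : 1 ≤ 1 / piN n := by rw [le_div_iff₀ hπpos]; linarith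
    linarith
  have hdπ1 : dπ ≤ 1 := by
    have h1 : 1 / piN n ≤ 2 := by rw [div_le_iff₀ hπpos]; linarith
    linarith
  have hdπδ : dπ ≤ δ := by rw [hdπ]; exact hπδ
  have hadmcut : Adm (tcut t n) := Adm_tcut t h n hn4
  have hadmdiv : Adm (fun k => t k / piN n) :=
    ⟨fun k => div_nonneg (h.1 k) hπpos.le, h.2.div_const _⟩
  have hX1 : Fp (μ + u) (tcut t n) ≤ Fp (μ + u) (fun k => t k / piN n) :=
    Fp_mono (μ + u) _ _ hadmcut hadmdiv (fun k => tcut_le t h n hn4 k)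
  have hconv := Fp_convex (μ + u) (μ + u) t (fun k => 2 * t k) h hadm2 (1 - dπ) dπ
    (by linarith) hdπ0 (by ring)
  have he1 : (1 - dπ) * (μ + u) + dπ * (μ + u) = μ + u := by ring
  have he2 : (fun k => (1 - dπ) * t k + dπ * (2 * t k)) = fun k => t k / piN n := by
    funext k
    rw [hdπ]
    field_simp
    ring
  rw [he1, he2] at hconv
  have hX2 : Fp (μ + u) (tcut t n) ≤ Fp (μ + u) t + δ * M := by
    have h1 : (1 - dπ) * Fp (μ + u) t ≤ Fp (μ + u) t :=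
      mul_le_of_le_one_left hF0 (by linarith)
    have h2 : dπ * Fp (μ + u) (fun k => 2 * t k) ≤ δ * M :=
      mul_le_mul hdπδ hF_2t hF20 hδpos.le
    linarith
  have hX0 : 0 ≤ Fp (μ + u) (tcut t n) := Fp_nonneg _ hadmcut _
  have hκX : (((rho n : ℝ) + 1) / (rho n : ℝ)) ^ 3 * Fp (μ + u) (tcut t n)
      ≤ Fp (μ + u) t + 3 * δ * M := by
    have hκ1 : (((rho n : ℝ) + 1) / (rho n : ℝ)) ^ 3 ≤ 1 + δ := by linarith
    have h1 : (((rho n : ℝ) + 1) / (rho n : ℝ)) ^ 3 * Fp (μ + u) (tcut t n)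
        ≤ (1 + δ) * (Fp (μ + u) t + δ * M) :=
      mul_le_mul hκ1 hX2 hX0 (by linarith)
    have h2 : 0 ≤ δ * (M - Fp (μ + u) t) := mul_nonneg hδpos.le (by linarith)
    have h3 : 0 ≤ δ * (1 - δ) * M := mul_nonneg (mul_nonneg hδpos.le (by linarith)) (by linarith)
    linarith
  have hl0 : 0 < (rho n : ℝ) := by exact_mod_cast rho_pos n
  have hl3 : 0 < (rho n : ℝ) ^ 3 := by positivity
  have hsqrt : Real.sqrt (32 * s * c / 3) ≤ C0 * Real.sqrt σ := by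
    rw [Real.sqrt_le_left (by positivity)]
    exact h32
  have hlogarg : Real.sqrt (32 * s * c / 3) * (rho n : ℝ) ^ 3 / (2 * s) + 2
      ≤ a * (rho n : ℝ) ^ 3 + 2 := by
    have h1 : Real.sqrt (32 * s * c / 3) * (rho n : ℝ) ^ 3 / (2 * s)
        ≤ C0 * Real.sqrt σ * (rho n : ℝ) ^ 3 / (21 * σ) :=
      div_le_div₀ (by positivity) (mul_le_mul_of_nonneg_right hsqrt hl3.le) (by positivity)
        (by linarith)
    have e : a * (rho n : ℝ) ^ 3 = C0 * Real.sqrt σ * (rho n : ℝ) ^ 3 / (21 * σ) := by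
      rw [ha]; ring
    linarith
  have hlogle : Real.log (Real.sqrt (32 * s * c / 3) * (rho n : ℝ) ^ 3 / (2 * s) + 2)
      / (rho n : ℝ) ^ 3 ≤ δ := by
    have h1 : Real.log (Real.sqrt (32 * s * c / 3) * (rho n : ℝ) ^ 3 / (2 * s) + 2)
        ≤ Real.log (a * (rho n : ℝ) ^ 3 + 2) :=
      Real.log_le_log (by positivity) hlogarg
    have h2 := div_le_div_of_nonneg_right h1 hl3.le
    linarith
  refine ⟨u, s, hu0, huC, hs_lo, hs_hi, ?_⟩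
  linarith

end Vale.Agent.H96.P171
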